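import Vale.Agent.H83.Stream.CapBound

/-!
# The output-size bound for memory-bounded learners
-/

namespace Vale.Agent.H83.Stream

open MeasureTheory ProbabilityTheory Metric Set
open scoped ENNReal

/-- If the guess is computed from an `N`-valued summary `W` of the pair (signal, randomness) and
from the randomness, then it is good with probability at most `N` times the largest measure of
the set of signals for which one fixed guess is good. -/
theorem summary_bound {S Ω : Type*} [MeasurableSpace S] [MeasurableSpace Ω]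
    (σ : Measure S) [SFinite σ] (P : Measure Ω) [IsProbabilityMeasure P]
    {N : ℕ} (W : S × Ω → Fin N) (out : Fin N → Ω → S)
    (G : Set (S × S)) (hG : MeasurableSet G) (hout : ∀ w, Measurable (out w))
    (c : ℝ≥0∞) (hc : ∀ a, σ {s | (a, s) ∈ G} ≤ c) :
    (σ.prod P) {p | (out (W p) p.2, p.1) ∈ G} ≤ N * c := by
  have hsub : {p : S × Ω | (out (W p) p.2, p.1) ∈ G}
      ⊆ ⋃ w : Fin N, {p : S × Ω | (out w p.2, p.1) ∈ G} := by
    intro p hp
    exact mem_iUnion.2 ⟨W p, hp⟩
  have hterm : ∀ w : Fin N, (σ.prod P) {p : S × Ω | (out w p.2, p.1) ∈ G} ≤ c := by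
    intro w
    have hmeas : MeasurableSet {p : S × Ω | (out w p.2, p.1) ∈ G} :=
      hG.preimage (((hout w).comp measurable_snd).prodMk measurable_fst)
    rw [Measure.prod_apply_symm hmeas]
    calc ∫⁻ ω, σ ((fun s => (s, ω)) ⁻¹' {p : S × Ω | (out w p.2, p.1) ∈ G}) ∂P
        ≤ ∫⁻ _ω, c ∂P := lintegral_mono (fun ω => hc (out w ω))
      _ = c := by simp
  calc (σ.prod P) {p | (out (W p) p.2, p.1) ∈ G}
      ≤ (σ.prod P) (⋃ w : Fin N, {p : S × Ω | (out w p.2, p.1) ∈ G}) := measure_mono hsub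
    _ ≤ ∑ w : Fin N, (σ.prod P) {p : S × Ω | (out w p.2, p.1) ∈ G} :=
        measure_iUnion_fintype_le _ _
    _ ≤ ∑ _w : Fin N, c := Finset.sum_le_sum (fun w _ => hterm w)
    _ = N * c := by simp

variable {d M T : ℕ}

instance instSFiniteUnifSphere (d : ℕ) : SFinite (unifSphere d) := by
  unfold unifSphere
  infer_instance

/-- The success probability of any learner with `M` bits is at most `2^(M+d+1) ε^(d-1)`. -/
theorem successProb_le (hd : 1 ≤ d) {ε : ℝ} (hε : 0 < ε) (hε1 : ε ≤ 1) (L : Learner d M T) :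
    L.successProb ε ≤ ENNReal.ofReal (2 ^ (M + d + 1) * ε ^ (d - 1)) := by
  unfold Learner.successProb
  have hG : MeasurableSet {q : Sph d × Sph d | Real.arccos (inner ℝ (q.1 : Row d) (q.2 : Row d)) ≤ ε} := by
    have hc : Continuous fun q : Sph d × Sph d =>
        Real.arccos (inner ℝ (q.1 : Row d) (q.2 : Row d)) :=
      Real.continuous_arccos.comp
        ((continuous_subtype_val.comp continuous_fst).inner
          (continuous_subtype_val.comp continuous_snd))
    exact measurableSet_le hc.measurable measurable_const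
  have h := summary_bound (unifSphere d)
    ((Measure.pi fun _ : Fin T => stdGaussian (Row d)).prod L.coins)
    (fun p => L.finalState p.1 p.2.1 p.2.2) (fun w ω' => L.out w ω'.2)
    {q : Sph d × Sph d | Real.arccos (inner ℝ (q.1 : Row d) (q.2 : Row d)) ≤ ε} hG
    (fun w => (L.out_meas w).comp measurable_snd)
    (ENNReal.ofReal (2 ^ (d + 1) * ε ^ (d - 1)))
    (fun a => unifSphere_cap_le d hd a hε hε1)
  refine h.trans ?_
  have h2 : ((2 ^ M : ℕ) : ℝ≥0∞) = ENNReal.ofReal ((2 : ℝ) ^ M) := by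
    rw [ENNReal.ofReal_pow (by norm_num)]; simp
  rw [h2, ← ENNReal.ofReal_mul (by positivity)]
  apply ENNReal.ofReal_le_ofReal
  apply le_of_eq
  ring

/-- A learner with `M` bits that succeeds at accuracy `ε ≤ 1` has
`(1/ε)^(d-1) ≤ 3 · 2^(M+d)`. -/
theorem memory_of_succeeds (hd : 1 ≤ d) {ε : ℝ} (hε : 0 < ε) (hε1 : ε ≤ 1) (L : Learner d M T)
    (hL : L.Succeeds ε) : (1 / ε) ^ (d - 1) ≤ 3 * 2 ^ (M + d) := by
  have h1 := hL.trans (successProb_le hd hε hε1 L)
  have h2 : (2 / 3 : ℝ≥0∞) = ENNReal.ofReal (2 / 3) := by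
    rw [ENNReal.ofReal_div_of_pos (by norm_num)]; simp
  rw [h2, ENNReal.ofReal_le_ofReal_iff (by positivity)] at h1
  have hεp : 0 < ε ^ (d - 1) := by positivity
  rw [one_div, inv_pow, inv_le_iff_one_le_mul₀ hεp]
  have h3 : (2 : ℝ) ^ (M + d + 1) = 2 * 2 ^ (M + d) := by rw [pow_succ]; ring
  rw [h3] at h1
  nlinarith

end Vale.Agent.H83.Stream
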