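import Vale.Agent.H83.Stream.Model

/-!
# The measure of a spherical cap, and the output-size bound
-/

namespace Vale.Agent.H83.Stream

open MeasureTheory ProbabilityTheory Metric Set
open scoped Pointwise ENNReal

/-- Unit vectors at angle at most `ε` are at distance at most `ε`. -/
lemma norm_sub_le_of_arccos_le {E : Type*} [NormedAddCommGroup E] [InnerProductSpace ℝ E]
    {a s : E} (ha : ‖a‖ = 1) (hs : ‖s‖ = 1) {ε : ℝ} (hε0 : 0 ≤ ε) (hεπ : ε ≤ Real.pi)
    (h : Real.arccos (inner ℝ a s) ≤ ε) : ‖s - a‖ ≤ ε := by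
  have hx1 : inner ℝ a s ≤ 1 := by
    have := real_inner_le_norm a s
    rw [ha, hs] at this; linarith
  have hx2 : -1 ≤ inner ℝ a s := by
    have h1 := abs_real_inner_le_norm a s
    rw [ha, hs] at h1
    have h2 := neg_abs_le (inner ℝ a s)
    linarith
  have h1 : Real.cos ε ≤ inner ℝ a s := by
    calc Real.cos ε ≤ Real.cos (Real.arccos (inner ℝ a s)) :=
          Real.cos_le_cos_of_nonneg_of_le_pi (Real.arccos_nonneg _) hεπ h
      _ = inner ℝ a s := Real.cos_arccos hx2 hx1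
  have h2 : 1 - ε ^ 2 / 2 ≤ Real.cos ε := Real.one_sub_sq_div_two_le_cos
  have h3 : ‖s - a‖ ^ 2 = 2 - 2 * inner ℝ a s := by
    rw [norm_sub_sq_real, hs, ha, real_inner_comm]; ring
  have h4 : ‖s - a‖ ^ 2 ≤ ε ^ 2 := by rw [h3]; linarith
  exact (pow_le_pow_iff_left₀ (norm_nonneg _) hε0 two_ne_zero).1 h4

/-- The cone over a set of unit vectors within `ε` of `a` is covered by `m` balls of radius
`2 ε` centred on the segment from `0` to `a`, as soon as `1 / ε ≤ m`. -/
lemma cone_subset {E : Type*} [NormedAddCommGroup E] [NormedSpace ℝ E]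
    (a : E) (ha : ‖a‖ = 1) {ε : ℝ} (hε : 0 < ε) (m : ℕ) (hm : 1 / ε ≤ m)
    (C : Set E) (hC : ∀ s ∈ C, ‖s - a‖ ≤ ε) :
    Ioo (0 : ℝ) 1 • C ⊆ ⋃ j ∈ Finset.range m, closedBall (((j : ℝ) / m) • a) (2 * ε) := by
  have hm0 : (0 : ℝ) < m := lt_of_lt_of_le (by positivity) hm
  rintro x ⟨t, ht, s, hs, rfl⟩
  simp only [mem_iUnion, Finset.mem_range, mem_closedBall, exists_prop]
  have htm : 0 ≤ t * m := by nlinarith [ht.1]
  refine ⟨⌊t * m⌋₊, ?_, ?_⟩
  · rw [Nat.floor_lt htm]
    nlinarith [ht.2]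
  · rw [dist_eq_norm]
    have hfl1 : (⌊t * m⌋₊ : ℝ) ≤ t * m := Nat.floor_le htm
    have hfl2 : t * m < (⌊t * m⌋₊ : ℝ) + 1 := Nat.lt_floor_add_one _
    have hd1 : 0 ≤ t - (⌊t * m⌋₊ : ℝ) / m := by
      rw [sub_nonneg, div_le_iff₀ hm0]; exact hfl1
    have hd2 : t - (⌊t * m⌋₊ : ℝ) / m ≤ 1 / m := by
      rw [sub_le_iff_le_add, ← add_div, le_div_iff₀ hm0]; linarith
    have hmε : 1 / (m : ℝ) ≤ ε := by
      rw [div_le_iff₀ hm0]
      have := (div_le_iff₀ hε).1 hm
      linarith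
    have hsplit : t • s - ((⌊t * m⌋₊ : ℝ) / m) • a
        = t • (s - a) + (t - (⌊t * m⌋₊ : ℝ) / m) • a := by
      rw [smul_sub, sub_smul]; abel
    rw [hsplit]
    calc ‖t • (s - a) + (t - (⌊t * m⌋₊ : ℝ) / m) • a‖
        ≤ ‖t • (s - a)‖ + ‖(t - (⌊t * m⌋₊ : ℝ) / m) • a‖ := norm_add_le _ _
      _ = t * ‖s - a‖ + (t - (⌊t * m⌋₊ : ℝ) / m) := by
          rw [norm_smul, norm_smul, ha, Real.norm_of_nonneg ht.1.le, Real.norm_of_nonneg hd1,
            mul_one]
      _ ≤ 1 * ε + 1 / m := by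
          have := hC s hs
          have h1 : t * ‖s - a‖ ≤ 1 * ε :=
            mul_le_mul ht.2.le this (norm_nonneg _) zero_le_one
          linarith
      _ ≤ 2 * ε := by linarith

/-- The set of unit vectors within angle `ε` of `a`. -/
def cap (d : ℕ) (a : Row d) (ε : ℝ) : Set (Sph d) :=
  {s | Real.arccos (inner ℝ a (s : Row d)) ≤ ε}

lemma measurableSet_cap (d : ℕ) (a : Row d) (ε : ℝ) : MeasurableSet (cap d a ε) := by
  have hc : Continuous fun s : Sph d => Real.arccos (inner ℝ a (s : Row d)) :=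
    Real.continuous_arccos.comp (continuous_const.inner continuous_subtype_val)
  exact measurableSet_le hc.measurable measurable_const

/-- Surface measure of a cap of angular radius `ε ≤ 1`. -/
theorem toSphere_cap_le (d : ℕ) (hd : 1 ≤ d) (a : Sph d) {ε : ℝ} (hε : 0 < ε) (hε1 : ε ≤ 1) :
    (volume : Measure (Row d)).toSphere (cap d (a : Row d) ε)
      ≤ ENNReal.ofReal (2 ^ (d + 1) * ε ^ (d - 1)) *
        (volume : Measure (Row d)).toSphere univ := by
  have hdim : Module.finrank ℝ (Row d) = d := by simp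
  have ha : ‖(a : Row d)‖ = 1 := by simp
  rw [Measure.toSphere_apply' _ (measurableSet_cap d _ ε), Measure.toSphere_apply_univ]
  set m : ℕ := ⌈1 / ε⌉₊ with hm
  have hm1 : 1 / ε ≤ m := Nat.le_ceil _
  have hm2 : (m : ℝ) < 1 / ε + 1 := Nat.ceil_lt_add_one (by positivity)
  have h1ε : 1 ≤ 1 / ε := by rw [le_div_iff₀ hε]; linarith
  have hm3 : (m : ℝ) ≤ 2 / ε := by
    have : 2 / ε = 1 / ε + 1 / ε := by ring
    linarith
  have hsub := cone_subset (a : Row d) ha hε m hm1 (Subtype.val '' cap d (a : Row d) ε) (by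
    rintro _ ⟨s, hs, rfl⟩
    have hs1 : ‖(s : Row d)‖ = 1 := by simp
    exact norm_sub_le_of_arccos_le ha hs1 hε.le (by linarith [Real.pi_gt_three]) hs)
  have hcone : (volume : Measure (Row d)) (Ioo (0 : ℝ) 1 • (Subtype.val '' cap d (a : Row d) ε))
      ≤ ENNReal.ofReal (2 ^ (d + 1) * ε ^ (d - 1)) * (volume : Measure (Row d)) (ball 0 1) := by
    calc (volume : Measure (Row d)) (Ioo (0 : ℝ) 1 • (Subtype.val '' cap d (a : Row d) ε))
        ≤ (volume : Measure (Row d))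
            (⋃ j ∈ Finset.range m, closedBall (((j : ℝ) / m) • (a : Row d)) (2 * ε)) :=
          measure_mono hsub
      _ ≤ ∑ j ∈ Finset.range m,
            (volume : Measure (Row d)) (closedBall (((j : ℝ) / m) • (a : Row d)) (2 * ε)) :=
          measure_biUnion_finset_le _ _
      _ = ∑ _j ∈ Finset.range m,
            ENNReal.ofReal ((2 * ε) ^ d) * (volume : Measure (Row d)) (ball 0 1) := by
          refine Finset.sum_congr rfl (fun j _ => ?_)
          rw [Measure.addHaar_closedBall _ _ (by positivity), hdim]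
      _ = (m : ℝ≥0∞) * (ENNReal.ofReal ((2 * ε) ^ d) * (volume : Measure (Row d)) (ball 0 1)) := by
          rw [Finset.sum_const, Finset.card_range, nsmul_eq_mul]
      _ ≤ ENNReal.ofReal (2 ^ (d + 1) * ε ^ (d - 1)) * (volume : Measure (Row d)) (ball 0 1) := by
          rw [← mul_assoc]
          gcongr
          have : (m : ℝ≥0∞) = ENNReal.ofReal (m : ℝ) := by simp
          rw [this, ← ENNReal.ofReal_mul (by positivity)]
          apply ENNReal.ofReal_le_ofReal
          have hpow : (2 * ε) ^ d = 2 ^ d * (ε ^ (d - 1) * ε) := by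
            rw [mul_pow, ← pow_succ, Nat.sub_add_cancel hd]
          calc (m : ℝ) * (2 * ε) ^ d ≤ (2 / ε) * (2 * ε) ^ d := by gcongr
            _ = 2 ^ (d + 1) * ε ^ (d - 1) := by
                rw [hpow, pow_succ]; field_simp
  calc (Module.finrank ℝ (Row d) : ℝ≥0∞)
        * (volume : Measure (Row d)) (Ioo (0 : ℝ) 1 • (Subtype.val '' cap d (a : Row d) ε))
      ≤ (Module.finrank ℝ (Row d) : ℝ≥0∞)
        * (ENNReal.ofReal (2 ^ (d + 1) * ε ^ (d - 1)) * (volume : Measure (Row d)) (ball 0 1)) := by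
        gcongr
    _ = ENNReal.ofReal (2 ^ (d + 1) * ε ^ (d - 1)) *
        ((Module.finrank ℝ (Row d) : ℝ≥0∞) * (volume : Measure (Row d)) (ball 0 1)) := by ring

/-- Uniform measure of a cap of angular radius `ε ≤ 1`. -/
theorem unifSphere_cap_le (d : ℕ) (hd : 1 ≤ d) (a : Sph d) {ε : ℝ} (hε : 0 < ε) (hε1 : ε ≤ 1) :
    unifSphere d (cap d (a : Row d) ε) ≤ ENNReal.ofReal (2 ^ (d + 1) * ε ^ (d - 1)) := by
  unfold unifSphere
  rw [Measure.smul_apply, smul_eq_mul]
  have h := toSphere_cap_le d hd a hε hε1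
  set A := (volume : Measure (Row d)).toSphere univ with hA
  have hAtop : A ≠ ⊤ := measure_ne_top _ _
  by_cases hA0 : A = 0
  · rw [hA0, mul_zero] at h
    have : (volume : Measure (Row d)).toSphere (cap d (a : Row d) ε) = 0 := le_antisymm h bot_le
    rw [this, mul_zero]; exact bot_le
  · calc A⁻¹ * (volume : Measure (Row d)).toSphere (cap d (a : Row d) ε)
        ≤ A⁻¹ * (ENNReal.ofReal (2 ^ (d + 1) * ε ^ (d - 1)) * A) := by gcongr
      _ = ENNReal.ofReal (2 ^ (d + 1) * ε ^ (d - 1)) * (A⁻¹ * A) := by ring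
      _ = ENNReal.ofReal (2 ^ (d + 1) * ε ^ (d - 1)) := by
          rw [ENNReal.inv_mul_cancel hA0 hAtop, mul_one]

end Vale.Agent.H83.Stream
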