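import Vale.Agent.H83.Stream.KzMain
import Vale.Agent.H83.Stream.Bound

/-!
# Explicit memory and horizon for the quantised Kaczmarz learner
-/

namespace Vale.Agent.H83.Stream

open MeasureTheory ProbabilityTheory
open scoped ENNReal

variable {d : ℕ}

/-- The horizon condition in closed form. -/
lemma pow_le_of_log_le (hd : 1 ≤ d) {ε : ℝ} (hε : 0 < ε) {T : ℕ}
    (hT : 2 * (d : ℝ) * Real.log (24 / ε ^ 2) ≤ T) :
    (1 - 1 / (2 * (d : ℝ))) ^ T ≤ ε ^ 2 / 24 := by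
  have hdR : (1 : ℝ) ≤ d := by exact_mod_cast hd
  have hd0 : (0 : ℝ) < 2 * d := by linarith
  have hκ0 : 0 ≤ 1 - 1 / (2 * (d : ℝ)) := by
    have : 1 / (2 * (d : ℝ)) ≤ 1 := by rw [div_le_one hd0]; linarith
    linarith
  have hκ1 : 1 - 1 / (2 * (d : ℝ)) ≤ Real.exp (-(1 / (2 * (d : ℝ)))) := by
    have := Real.add_one_le_exp (-(1 / (2 * (d : ℝ))))
    linarith
  have hpos : (0 : ℝ) < 24 / ε ^ 2 := by positivity
  calc (1 - 1 / (2 * (d : ℝ))) ^ T ≤ (Real.exp (-(1 / (2 * (d : ℝ))))) ^ T :=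
        pow_le_pow_left₀ hκ0 hκ1 T
    _ = Real.exp (-((T : ℝ) / (2 * (d : ℝ)))) := by
        rw [← Real.exp_nat_mul]; congr 1; ring
    _ ≤ Real.exp (-Real.log (24 / ε ^ 2)) := by
        apply Real.exp_le_exp.2
        have : Real.log (24 / ε ^ 2) ≤ (T : ℝ) / (2 * (d : ℝ)) := by
          rw [le_div_iff₀ hd0]; linarith
        linarith
    _ = ε ^ 2 / 24 := by
        rw [Real.exp_neg, Real.exp_log hpos, inv_div]

/-- A grid size that is fine enough and fits in the memory. -/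
lemma exists_grid (hd : 1 ≤ d) {ε : ℝ} (hε : 0 < ε) (hε1 : ε ≤ 1) {M : ℕ}
    (hM : (27 * (d : ℝ) * Real.sqrt d / ε) ^ d ≤ 2 ^ M) :
    ∃ N : ℕ, 144 * (d : ℝ) ^ 3 ≤ ε ^ 2 * (N : ℝ) ^ 2 ∧ (2 * N + 1) ^ d ≤ 2 ^ M := by
  have hdR : (1 : ℝ) ≤ d := by exact_mod_cast hd
  have hsq : (1 : ℝ) ≤ Real.sqrt d := by
    rw [show (1 : ℝ) = Real.sqrt 1 by simp]
    exact Real.sqrt_le_sqrt hdR
  have hss : Real.sqrt d * Real.sqrt d = d := Real.mul_self_sqrt (by linarith)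
  set A : ℝ := (d : ℝ) * Real.sqrt d / ε with hA
  have hA1 : 1 ≤ A := by
    rw [hA, le_div_iff₀ hε]
    nlinarith
  refine ⟨⌈12 * A⌉₊, ?_, ?_⟩
  · have h1 : 12 * A ≤ (⌈12 * A⌉₊ : ℝ) := Nat.le_ceil _
    have h2 : 12 * ((d : ℝ) * Real.sqrt d) ≤ ε * (⌈12 * A⌉₊ : ℝ) := by
      have : 12 * ((d : ℝ) * Real.sqrt d) = ε * (12 * A) := by
        rw [hA]; field_simp
      rw [this]
      exact mul_le_mul_of_nonneg_left h1 hε.le
    have h3 : (12 * ((d : ℝ) * Real.sqrt d)) ^ 2 ≤ (ε * (⌈12 * A⌉₊ : ℝ)) ^ 2 :=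
      pow_le_pow_left₀ (by positivity) h2 2
    have h4 : (12 * ((d : ℝ) * Real.sqrt d)) ^ 2 = 144 * (d : ℝ) ^ 3 := by
      have : (12 * ((d : ℝ) * Real.sqrt d)) ^ 2
          = 144 * (d : ℝ) ^ 2 * (Real.sqrt d * Real.sqrt d) := by ring
      rw [this, hss]; ring
    rw [h4] at h3
    calc 144 * (d : ℝ) ^ 3 ≤ (ε * (⌈12 * A⌉₊ : ℝ)) ^ 2 := h3
      _ = ε ^ 2 * (⌈12 * A⌉₊ : ℝ) ^ 2 := by ring
  · have h1 : (⌈12 * A⌉₊ : ℝ) < 12 * A + 1 := Nat.ceil_lt_add_one (by positivity)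
    have h2 : ((2 * ⌈12 * A⌉₊ + 1 : ℕ) : ℝ) ≤ 27 * (d : ℝ) * Real.sqrt d / ε := by
      have : 27 * (d : ℝ) * Real.sqrt d / ε = 27 * A := by rw [hA]; ring
      rw [this]
      push_cast
      linarith
    have h3 : (((2 * ⌈12 * A⌉₊ + 1) ^ d : ℕ) : ℝ) ≤ ((2 ^ M : ℕ) : ℝ) := by
      push_cast
      calc ((2 : ℝ) * (⌈12 * A⌉₊ : ℝ) + 1) ^ d
          ≤ (27 * (d : ℝ) * Real.sqrt d / ε) ^ d := by
            apply pow_le_pow_left₀ (by positivity)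
            have := h2
            push_cast at this
            exact this
        _ ≤ 2 ^ M := hM
    exact_mod_cast h3

/-- Quantised Kaczmarz: a learner with `M ≥ d log₂(27 d^(3/2)/ε)` bits and horizon
`T ≥ 2 d ln(24/ε²)` that succeeds at accuracy `ε`. -/
theorem exists_learner_succeeds (hd : 1 ≤ d) {ε : ℝ} (hε : 0 < ε) (hε1 : ε ≤ 1) {M T : ℕ}
    (hM : (27 * (d : ℝ) * Real.sqrt d / ε) ^ d ≤ 2 ^ M)
    (hT : 2 * (d : ℝ) * Real.log (24 / ε ^ 2) ≤ T) :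
    ∃ L : Learner d M T, L.Succeeds ε := by
  obtain ⟨N, hN, hMN⟩ := exists_grid hd hε hε1 hM
  exact ⟨kzLearner d M T N hd hMN,
    kzLearner_succeeds d M T N hd ε hε hε1 hN hMN (pow_le_of_log_le hd hε hT)⟩

end Vale.Agent.H83.Stream
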