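import Vale.Agent.H83.Stream.Model

/-!
# Isotropy of the standard Gaussian: the expected squared cosine with a fixed vector is `1/d`
-/

namespace Vale.Agent.H83.Stream

open MeasureTheory ProbabilityTheory
open scoped ENNReal RealInnerProductSpace

variable {d : ℕ}

/-- The standard Gaussian does not charge the origin. -/
lemma stdGaussian_singleton_zero (hd : 1 ≤ d) : stdGaussian (Row d) {0} = 0 := by
  rw [← map_pi_eq_stdGaussian]
  have hm : Measurable (WithLp.toLp 2 : (Fin d → ℝ) → Row d) := by fun_prop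
  rw [Measure.map_apply hm (measurableSet_singleton 0)]
  have i0 : Fin d := ⟨0, hd⟩
  have hsub : (WithLp.toLp 2 : (Fin d → ℝ) → Row d) ⁻¹' {0} ⊆ (fun f : Fin d → ℝ => f i0) ⁻¹' {0} := by
    intro f hf
    simp only [Set.mem_preimage, Set.mem_singleton_iff] at hf ⊢
    have := congrArg (fun v : Row d => v i0) hf
    simpa using this
  refine measure_mono_null hsub ?_
  have h1 : (Measure.pi fun _ : Fin d => gaussianReal 0 1).map (fun f : Fin d → ℝ => f i0) =
      gaussianReal 0 1 := by
    have := (measurePreserving_eval (μ := fun _ : Fin d => gaussianReal 0 1) i0).map_eq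
    simpa using this
  rw [← Measure.map_apply (measurable_pi_apply i0) (measurableSet_singleton 0), h1]
  exact gaussianReal_absolutelyContinuous 0 (by norm_num) (by simp)

/-- The squared cosine of the angle between `y` and `u`, times `‖u‖²`. -/
noncomputable def cosq (u y : Row d) : ℝ := ⟪y, u⟫ ^ 2 / ‖y‖ ^ 2

lemma cosq_nonneg (u y : Row d) : 0 ≤ cosq u y := by unfold cosq; positivity

lemma cosq_le (u y : Row d) : cosq u y ≤ ‖u‖ ^ 2 := by
  unfold cosq
  by_cases hy : y = 0
  · simp [hy]
  · have hy2 : 0 < ‖y‖ ^ 2 := by positivity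
    rw [div_le_iff₀ hy2]
    have h := abs_real_inner_le_norm y u
    have h2 : ⟪y, u⟫ ^ 2 ≤ (‖y‖ * ‖u‖) ^ 2 := by
      rw [← sq_abs]; exact pow_le_pow_left₀ (abs_nonneg _) h 2
    nlinarith [h2]

lemma measurable_cosq (u : Row d) : Measurable (cosq u) := by
  unfold cosq; fun_prop

lemma integrable_cosq (u : Row d) : Integrable (cosq u) (stdGaussian (Row d)) := by
  refine Integrable.of_bound (measurable_cosq u).aestronglyMeasurable (‖u‖ ^ 2) ?_
  filter_upwards with y
  rw [Real.norm_eq_abs, abs_of_nonneg (cosq_nonneg u y)]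
  exact cosq_le u y

/-- The mean squared cosine functional. -/
noncomputable def qform (u : Row d) : ℝ := ∫ y, cosq u y ∂(stdGaussian (Row d))

lemma qform_isometry (R : Row d ≃ₗᵢ[ℝ] Row d) (u : Row d) : qform (R u) = qform u := by
  unfold qform
  have hpt : ∀ y, cosq (R u) y = cosq u (R.symm y) := by
    intro y
    unfold cosq
    have h1 : ⟪y, R u⟫ = ⟪R.symm y, u⟫ := by
      rw [← R.inner_map_map (R.symm y) u]; simp
    rw [h1, R.symm.norm_map]
  simp_rw [hpt]
  have hmap := stdGaussian_map (E := Row d) R.symm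
  have := integral_map (μ := stdGaussian (Row d)) (φ := fun y => R.symm y)
    (R.symm.continuous.measurable.aemeasurable) (f := cosq u)
    (measurable_cosq u).aestronglyMeasurable
  rw [← this]
  congr 1

lemma qform_smul (c : ℝ) (u : Row d) : qform (c • u) = c ^ 2 * qform u := by
  unfold qform
  rw [← integral_const_mul]
  congr 1
  ext y
  unfold cosq
  rw [inner_smul_right]
  ring

lemma qform_unit_eq {u v : Row d} (hu : ‖u‖ = 1) (hv : ‖v‖ = 1) : qform u = qform v := by
  have h := Submodule.reflection_sub (hu.trans hv.symm)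
  rw [← h, qform_isometry]

lemma sum_qform_basis (hd : 1 ≤ d) : ∑ i : Fin d, qform (EuclideanSpace.single i (1 : ℝ)) = 1 := by
  unfold qform
  rw [← integral_finsetSum _ (fun i _ => integrable_cosq _)]
  have hae : ∀ᵐ y ∂(stdGaussian (Row d)), ∑ i : Fin d, cosq (EuclideanSpace.single i (1 : ℝ)) y = 1 := by
    have h0 : ∀ᵐ y ∂(stdGaussian (Row d)), y ≠ 0 := by
      rw [ae_iff]
      simpa using stdGaussian_singleton_zero hd
    filter_upwards [h0] with y hy
    unfold cosq
    rw [← Finset.sum_div]
    have hy2 : ‖y‖ ^ 2 ≠ 0 := by positivity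
    rw [div_eq_one_iff_eq hy2, EuclideanSpace.real_norm_sq_eq]
    refine Finset.sum_congr rfl (fun i _ => ?_)
    rw [EuclideanSpace.inner_single_right]
    simp
  rw [integral_congr_ae hae]
  simp

/-- Isotropy: the mean of `⟪y,u⟫²/‖y‖²` under the standard Gaussian is `‖u‖²/d`. -/
theorem qform_eq (hd : 1 ≤ d) (u : Row d) : qform u = ‖u‖ ^ 2 / d := by
  have i0 : Fin d := ⟨0, hd⟩
  have hd0 : (d : ℝ) ≠ 0 := by positivity
  have hbasis : ∀ i : Fin d, qform (EuclideanSpace.single i (1 : ℝ)) =
      qform (EuclideanSpace.single i0 (1 : ℝ)) := by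
    intro i
    apply qform_unit_eq <;> simp
  have hsum := sum_qform_basis hd
  simp_rw [hbasis] at hsum
  rw [Finset.sum_const, Finset.card_univ, Fintype.card_fin, nsmul_eq_mul] at hsum
  have hq1 : qform (EuclideanSpace.single i0 (1 : ℝ)) = 1 / d := by
    field_simp; linarith
  by_cases hu : u = 0
  · subst hu
    unfold qform cosq
    simp
  · have hn : ‖u‖ ≠ 0 := by simpa using hu
    have hunit : ‖(‖u‖⁻¹ • u)‖ = 1 := by
      rw [norm_smul, norm_inv, norm_norm, inv_mul_cancel₀ hn]
    have h1 : qform (‖u‖⁻¹ • u) = 1 / d := by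
      rw [qform_unit_eq hunit (v := EuclideanSpace.single i0 (1 : ℝ)) (by simp), hq1]
    have h2 : u = ‖u‖ • (‖u‖⁻¹ • u) := by
      rw [smul_smul, mul_inv_cancel₀ hn, one_smul]
    rw [h2, qform_smul, h1, norm_smul, norm_norm, hunit]
    ring

/-- The expected squared distance after one exact Kaczmarz projection. -/
theorem lintegral_proj (hd : 1 ≤ d) (u : Row d) :
    ∫⁻ y, ENNReal.ofReal (‖u‖ ^ 2 - cosq u y) ∂(stdGaussian (Row d)) =
      ENNReal.ofReal ((1 - 1 / d) * ‖u‖ ^ 2) := by
  have hint : Integrable (fun y => ‖u‖ ^ 2 - cosq u y) (stdGaussian (Row d)) :=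
    (integrable_const _).sub (integrable_cosq u)
  rw [← ofReal_integral_eq_lintegral_ofReal hint
    (Filter.Eventually.of_forall (fun y => sub_nonneg.2 (cosq_le u y)))]
  congr 1
  rw [integral_sub (integrable_const _) (integrable_cosq u)]
  have := qform_eq hd u
  unfold qform at this
  rw [this]
  simp
  ring

end Vale.Agent.H83.Stream
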