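import Vale.Agent.H83.Stream.KzGauss

/-!
# The quantised Kaczmarz learner (construction)
-/

namespace Vale.Agent.H83.Stream

open MeasureTheory ProbabilityTheory
open scoped ENNReal RealInnerProductSpace

variable {d : ℕ}

/-- The Kaczmarz update of the estimate `z` on the pair `(x, y)`. -/
noncomputable def kz (z x : Row d) (y : ℝ) : Row d := z + ((y - ⟪x, z⟫) / ‖x‖ ^ 2) • x

lemma norm_kz_sub_sq (z x s : Row d) :
    ‖kz z x ⟪x, s⟫ - s‖ ^ 2 = ‖z - s‖ ^ 2 - cosq (z - s) x := by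
  unfold kz cosq
  have h1 : z + ((⟪x, s⟫ - ⟪x, z⟫) / ‖x‖ ^ 2) • x - s
      = (z - s) - (⟪x, z - s⟫ / ‖x‖ ^ 2) • x := by
    rw [inner_sub_right]
    have : (⟪x, s⟫ - ⟪x, z⟫) / ‖x‖ ^ 2 = -((⟪x, z⟫ - ⟪x, s⟫) / ‖x‖ ^ 2) := by ring
    rw [this, neg_smul]
    abel
  rw [h1, norm_sub_sq_real, inner_smul_right, norm_smul, real_inner_comm x (z - s)]
  by_cases hx : x = 0
  · simp [hx]
  · have hx2 : ‖x‖ ^ 2 ≠ 0 := by positivity
    rw [Real.norm_eq_abs, mul_pow, sq_abs]
    field_simp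
    ring

lemma measurable_kz : Measurable (fun q : Row d × Row d × ℝ => kz q.1 q.2.1 q.2.2) := by
  unfold kz
  fun_prop

/-- Clamp to `[-1, 1]`. -/
noncomputable def clampR (u : ℝ) : ℝ := max (-1) (min 1 u)

lemma clampR_ge (u : ℝ) : -1 ≤ clampR u := le_max_left _ _

lemma clampR_le (u : ℝ) : clampR u ≤ 1 := max_le (by norm_num) (min_le_left _ _)

lemma abs_clampR_sub_le (u σ : ℝ) (hσ : |σ| ≤ 1) : |clampR u - σ| ≤ |u - σ| := by
  have h1 := abs_le.1 hσ
  unfold clampR
  rcases le_total u 1 with hu | hu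
  · rw [min_eq_right hu]
    rcases le_total (-1) u with hu' | hu'
    · rw [max_eq_right hu']
    · rw [max_eq_left hu']
      rw [abs_le]; constructor
      · have := neg_abs_le (u - σ); have := abs_sub_comm u σ
        have h3 : |u - σ| = σ - u := by rw [abs_sub_comm, abs_of_nonneg (by linarith)]
        linarith
      · have h3 : |u - σ| = σ - u := by rw [abs_sub_comm, abs_of_nonneg (by linarith)]
        linarith
  · rw [min_eq_left hu, max_eq_right (by norm_num)]
    have h3 : |u - σ| = u - σ := abs_of_nonneg (by linarith)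
    rw [h3, abs_le]; constructor <;> linarith

/-- Round the clamped number down to a multiple of `1/N`. -/
noncomputable def rnd1 (N : ℕ) (u : ℝ) : ℝ := (⌊(N : ℝ) * clampR u⌋ : ℝ) / N

lemma abs_rnd1_sub_clampR {N : ℕ} (hN : 0 < N) (u : ℝ) : |rnd1 N u - clampR u| ≤ 1 / N := by
  unfold rnd1
  have hN' : (0 : ℝ) < N := by exact_mod_cast hN
  have h1 := Int.floor_le ((N : ℝ) * clampR u)
  have h2 := Int.lt_floor_add_one ((N : ℝ) * clampR u)
  have h3 : (⌊(N : ℝ) * clampR u⌋ : ℝ) / N - clampR u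
      = ((⌊(N : ℝ) * clampR u⌋ : ℝ) - N * clampR u) / N := by field_simp
  rw [h3, abs_div, abs_of_pos hN']
  apply div_le_div_of_nonneg_right _ hN'.le
  rw [abs_le]; constructor <;> linarith

lemma rnd1_sq_le {N : ℕ} (hN : 0 < N) (u σ : ℝ) (hσ : |σ| ≤ 1) {a : ℝ} (ha : 0 < a) :
    (rnd1 N u - σ) ^ 2 ≤ (1 + a) * (u - σ) ^ 2 + (1 + 1 / a) / (N : ℝ) ^ 2 := by
  have hN' : (0 : ℝ) < N := by exact_mod_cast hN
  have h1 := abs_rnd1_sub_clampR hN u
  have h2 := abs_clampR_sub_le u σ hσ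
  have h3 : |rnd1 N u - σ| ≤ |u - σ| + 1 / N := by
    calc |rnd1 N u - σ| = |(rnd1 N u - clampR u) + (clampR u - σ)| := by ring_nf
      _ ≤ |rnd1 N u - clampR u| + |clampR u - σ| := abs_add_le _ _
      _ ≤ 1 / N + |u - σ| := add_le_add h1 h2
      _ = |u - σ| + 1 / N := add_comm _ _
  set p := |u - σ| with hp
  have hp0 : 0 ≤ p := abs_nonneg _
  have h4 : (rnd1 N u - σ) ^ 2 ≤ (p + 1 / N) ^ 2 := by
    rw [← sq_abs]; exact pow_le_pow_left₀ (abs_nonneg _) h3 2
  have h5 : (u - σ) ^ 2 = p ^ 2 := by rw [hp, sq_abs]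
  rw [h5]
  refine h4.trans ?_
  have h6 : (p + 1 / N) ^ 2 = p ^ 2 + 2 * p * (1 / N) + (1 / (N : ℝ)) ^ 2 := by ring
  have h7 : 2 * p * (1 / (N : ℝ)) ≤ a * p ^ 2 + (1 / a) * (1 / (N : ℝ)) ^ 2 := by
    have := sq_nonneg (Real.sqrt a * p - (1 / Real.sqrt a) * (1 / (N : ℝ)))
    have hsa : 0 < Real.sqrt a := Real.sqrt_pos.2 ha
    have e1 : Real.sqrt a * Real.sqrt a = a := Real.mul_self_sqrt ha.le
    have e2 : (Real.sqrt a * p - (1 / Real.sqrt a) * (1 / (N : ℝ))) ^ 2
        = a * p ^ 2 - 2 * p * (1 / (N : ℝ)) + (1 / a) * (1 / (N : ℝ)) ^ 2 := by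
      have e3 : (1 / Real.sqrt a) ^ 2 = 1 / a := by
        rw [div_pow, one_pow, sq, e1]
      have e4 : Real.sqrt a * (1 / Real.sqrt a) = 1 := by field_simp
      calc (Real.sqrt a * p - (1 / Real.sqrt a) * (1 / (N : ℝ))) ^ 2
          = (Real.sqrt a * Real.sqrt a) * p ^ 2
            - 2 * (Real.sqrt a * (1 / Real.sqrt a)) * p * (1 / (N : ℝ))
            + (1 / Real.sqrt a) ^ 2 * (1 / (N : ℝ)) ^ 2 := by ring
        _ = a * p ^ 2 - 2 * p * (1 / (N : ℝ)) + (1 / a) * (1 / (N : ℝ)) ^ 2 := by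
            rw [e1, e3, e4]; ring
    linarith
  have h8 : (1 + 1 / a) / (N : ℝ) ^ 2 = (1 / (N : ℝ)) ^ 2 + (1 / a) * (1 / (N : ℝ)) ^ 2 := by
    field_simp
  rw [h6, h8]
  nlinarith [h7]

lemma measurable_rnd1 (N : ℕ) : Measurable (rnd1 N) := by
  unfold rnd1 clampR
  have h1 : Measurable (fun u : ℝ => ⌊(N : ℝ) * max (-1) (min 1 u)⌋) :=
    Int.measurable_floor.comp (by fun_prop)
  have h2 : Measurable (fun m : ℤ => (m : ℝ)) := measurable_from_top
  exact (h2.comp h1).div_const _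

/-- Coordinatewise rounding of a vector to the grid `{-1, ..., 1}` of mesh `1/N`. -/
noncomputable def rnd (N : ℕ) (v : Row d) : Row d := WithLp.toLp 2 (fun i => rnd1 N (v i))

@[simp] lemma rnd_apply (N : ℕ) (v : Row d) (i : Fin d) : rnd N v i = rnd1 N (v i) := rfl

lemma rnd_zero (N : ℕ) : rnd N (0 : Row d) = 0 := by
  ext i
  simp [rnd1, clampR]

lemma measurable_rnd (N : ℕ) : Measurable (rnd N : Row d → Row d) := by
  unfold rnd
  have h : Measurable (fun v : Row d => fun i => rnd1 N (v i)) := by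
    refine measurable_pi_iff.2 (fun i => (measurable_rnd1 N).comp ?_)
    fun_prop
  have hm : Measurable (WithLp.toLp 2 : (Fin d → ℝ) → Row d) := by fun_prop
  exact hm.comp h

lemma norm_rnd_sub_sq_le {N : ℕ} (hN : 0 < N) (v s : Row d) (hs : ∀ i, |s i| ≤ 1)
    {a : ℝ} (ha : 0 < a) :
    ‖rnd N v - s‖ ^ 2 ≤ (1 + a) * ‖v - s‖ ^ 2 + (1 + 1 / a) * d / (N : ℝ) ^ 2 := by
  rw [EuclideanSpace.real_norm_sq_eq, EuclideanSpace.real_norm_sq_eq, Finset.mul_sum]
  have h : ∀ i : Fin d, ((rnd N v - s) i) ^ 2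
      ≤ (1 + a) * ((v - s) i) ^ 2 + (1 + 1 / a) / (N : ℝ) ^ 2 := by
    intro i
    simpa using rnd1_sq_le hN (v i) (s i) (hs i) ha
  calc ∑ i, ((rnd N v - s) i) ^ 2
      ≤ ∑ i, ((1 + a) * ((v - s) i) ^ 2 + (1 + 1 / a) / (N : ℝ) ^ 2) :=
        Finset.sum_le_sum (fun i _ => h i)
    _ = ∑ i, (1 + a) * ((v - s) i) ^ 2 + (1 + 1 / a) * d / (N : ℝ) ^ 2 := by
        rw [Finset.sum_add_distrib, Finset.sum_const, Finset.card_univ, Fintype.card_fin,
          nsmul_eq_mul]
        ring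

/-- The index of the rounded vector in the grid. -/
noncomputable def idx (N : ℕ) (v : Row d) : Fin d → Fin (2 * N + 1) :=
  fun i => Fin.ofNat (2 * N + 1) (⌊(N : ℝ) * clampR (v i)⌋ + N).toNat

/-- The grid vector with a given index. -/
noncomputable def dec (N : ℕ) (k : Fin d → Fin (2 * N + 1)) : Row d :=
  WithLp.toLp 2 (fun i => (((k i : ℕ) : ℝ) - N) / N)

lemma dec_idx (N : ℕ) (v : Row d) : dec N (idx N v) = rnd N v := by
  ext i
  simp only [dec, idx, rnd, rnd1]
  have hN0 : (0 : ℝ) ≤ N := Nat.cast_nonneg N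
  have hlo : -(N : ℤ) ≤ ⌊(N : ℝ) * clampR (v i)⌋ := by
    rw [Int.le_floor]
    push_cast
    nlinarith [clampR_ge (v i)]
  have hhi : ⌊(N : ℝ) * clampR (v i)⌋ ≤ (N : ℤ) := by
    have h1 := Int.floor_le ((N : ℝ) * clampR (v i))
    have h2 : (N : ℝ) * clampR (v i) ≤ N := by nlinarith [clampR_le (v i)]
    have h3 : ((⌊(N : ℝ) * clampR (v i)⌋ : ℤ) : ℝ) ≤ ((N : ℤ) : ℝ) := by
      push_cast; linarith
    exact_mod_cast h3
  set m := ⌊(N : ℝ) * clampR (v i)⌋ with hm
  have hnn : 0 ≤ m + N := by linarith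
  have hlt : (m + N).toNat < 2 * N + 1 := by omega
  have hval : ((Fin.ofNat (2 * N + 1) (m + N).toNat : Fin (2 * N + 1)) : ℕ) = (m + N).toNat := by
    simp [Fin.ofNat, Nat.mod_eq_of_lt hlt]
  have hcast : (((m + N).toNat : ℕ) : ℝ) = (m : ℝ) + N := by
    have : (((m + N).toNat : ℕ) : ℤ) = m + N := Int.toNat_of_nonneg hnn
    have h2 : (((m + N).toNat : ℕ) : ℝ) = (((m + N).toNat : ℤ) : ℝ) := by norm_cast
    rw [h2, this]; push_cast; ring
  show ((((Fin.ofNat (2 * N + 1) (m + N).toNat : Fin (2 * N + 1)) : ℕ) : ℝ) - N) / N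
    = (m : ℝ) / N
  rw [hval, hcast]
  ring

lemma measurable_idx (N : ℕ) : Measurable (idx N : Row d → Fin d → Fin (2 * N + 1)) := by
  unfold idx
  refine measurable_pi_iff.2 (fun i => ?_)
  have h1 : Measurable (fun v : Row d => ⌊(N : ℝ) * clampR (v i)⌋) := by
    unfold clampR
    exact Int.measurable_floor.comp (by fun_prop)
  have h2 : Measurable (fun m : ℤ => Fin.ofNat (2 * N + 1) (m + N).toNat) := measurable_from_top
  exact h2.comp h1

lemma exists_enc (N M : ℕ) (h : (2 * N + 1) ^ d ≤ 2 ^ M) :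
    ∃ e : (Fin d → Fin (2 * N + 1)) → Fin (2 ^ M), Function.Injective e := by
  have hc : Fintype.card (Fin d → Fin (2 * N + 1)) ≤ Fintype.card (Fin (2 ^ M)) := by
    simpa using h
  obtain ⟨e⟩ := Function.Embedding.nonempty_of_card_le hc
  exact ⟨e, e.injective⟩

/-- An injective encoding of grid indices as memory states. -/
noncomputable def enc {N M : ℕ} (h : (2 * N + 1) ^ d ≤ 2 ^ M) :
    (Fin d → Fin (2 * N + 1)) → Fin (2 ^ M) :=
  Classical.choose (exists_enc N M h)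

lemma enc_injective {N M : ℕ} (h : (2 * N + 1) ^ d ≤ 2 ^ M) : Function.Injective (enc h) :=
  Classical.choose_spec (exists_enc N M h)

/-- Decoding of memory states. -/
noncomputable def decS {N M : ℕ} (h : (2 * N + 1) ^ d ≤ 2 ^ M) :
    Fin (2 ^ M) → (Fin d → Fin (2 * N + 1)) :=
  Function.invFun (enc h)

lemma decS_enc {N M : ℕ} (h : (2 * N + 1) ^ d ≤ 2 ^ M) (k : Fin d → Fin (2 * N + 1)) :
    decS h (enc h k) = k :=
  Function.leftInverse_invFun (enc_injective h) k

/-- The unit vector in the direction of `z` (a fixed unit vector if `z = 0`). -/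
noncomputable def outVec (hd : 1 ≤ d) (z : Row d) : Sph d :=
  if h : z = 0 then ⟨EuclideanSpace.single ⟨0, hd⟩ 1, by simp⟩
  else ⟨‖z‖⁻¹ • z, by
    rw [mem_sphere_zero_iff_norm, norm_smul, norm_inv, norm_norm,
      inv_mul_cancel₀ (norm_ne_zero_iff.2 h)]⟩

lemma outVec_coe (hd : 1 ≤ d) {z : Row d} (h : z ≠ 0) :
    ((outVec hd z : Sph d) : Row d) = ‖z‖⁻¹ • z := by
  unfold outVec
  rw [dif_neg h]

/-- The quantised Kaczmarz learner: the state is the current estimate rounded to the grid of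
mesh `1/N` in `[-1,1]^d`; no randomness; never stops early. -/
noncomputable def kzLearner (d M T N : ℕ) (hd : 1 ≤ d) (h : (2 * N + 1) ^ d ≤ 2 ^ M) :
    Learner d M T where
  Ω := Unit
  coins := Measure.dirac ()
  init := fun _ => enc h (idx N 0)
  init_meas := measurable_const
  step := fun _ w p _ => (enc h (idx N (kz (dec N (decS h w)) p.1 p.2)), false)
  step_meas := by
    intro t w
    refine Measurable.prodMk ?_ measurable_const
    have h1 : Measurable (fun p : (Row d × ℝ) × Unit => kz (dec N (decS h w)) p.1.1 p.1.2) := by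
      have := (measurable_kz (d := d)).comp
        (f := fun p : (Row d × ℝ) × Unit => (dec N (decS h w), p.1.1, p.1.2)) (by fun_prop)
      exact this
    exact (measurable_of_countable (enc h)).comp ((measurable_idx N).comp h1)
  out := fun w _ => outVec hd (dec N (decS h w))
  out_meas := fun w => measurable_const

/-- The estimate before rounding after `t` samples. -/
noncomputable def vseq (N : ℕ) {T : ℕ} (s : Row d) (x : Fin T → Row d) : ℕ → Row d
  | 0 => 0
  | t + 1 =>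
    if h : t < T then kz (rnd N (vseq N s x t)) (x ⟨t, h⟩) ⟪x ⟨t, h⟩, s⟫ else vseq N s x t

lemma Learner.run_succ {M T : ℕ} (L : Learner d M T) (s : Sph d) (x : Fin T → Row d) (ω : L.Ω)
    (t : ℕ) :
    L.run s x ω (t + 1) =
      if h : t < T then
        (if (L.run s x ω t).2 then L.run s x ω t
          else L.step ⟨t, h⟩ (L.run s x ω t).1 (x ⟨t, h⟩, inner ℝ (x ⟨t, h⟩) (s : Row d)) ω)
      else L.run s x ω t := rfl

lemma run_kzLearner (M T N : ℕ) (hd : 1 ≤ d) (h : (2 * N + 1) ^ d ≤ 2 ^ M)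
    (s : Sph d) (x : Fin T → Row d) (ω : (kzLearner d M T N hd h).Ω) (t : ℕ) :
    (kzLearner d M T N hd h).run s x ω t = (enc h (idx N (vseq N (s : Row d) x t)), false) := by
  induction t with
  | zero => rfl
  | succ t ih =>
    rw [Learner.run_succ, vseq]
    by_cases ht : t < T
    · rw [dif_pos ht, dif_pos ht, ih]
      simp only [Bool.false_eq_true, if_false]
      show (enc h (idx N (kz (dec N (decS h (enc h (idx N (vseq N (s : Row d) x t)))))
        (x ⟨t, ht⟩) ⟪x ⟨t, ht⟩, (s : Row d)⟫)), false) = _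
      rw [decS_enc, dec_idx]
    · rw [dif_neg ht, dif_neg ht, ih]

lemma out_kzLearner (M T N : ℕ) (hd : 1 ≤ d) (h : (2 * N + 1) ^ d ≤ 2 ^ M)
    (s : Sph d) (x : Fin T → Row d) (ω : (kzLearner d M T N hd h).Ω) :
    (kzLearner d M T N hd h).out ((kzLearner d M T N hd h).finalState s x ω) ω
      = outVec hd (rnd N (vseq N (s : Row d) x T)) := by
  unfold Learner.finalState
  rw [run_kzLearner]
  show outVec hd (dec N (decS h (enc h (idx N (vseq N (s : Row d) x T))))) = _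
  rw [decS_enc, dec_idx]

lemma vseq_congr (N : ℕ) {T : ℕ} (s : Row d) (x x' : Fin T → Row d) (t : ℕ)
    (hx : ∀ j : Fin T, (j : ℕ) < t → x j = x' j) : vseq N s x t = vseq N s x' t := by
  induction t with
  | zero => rfl
  | succ t ih =>
    rw [vseq, vseq]
    by_cases ht : t < T
    · rw [dif_pos ht, dif_pos ht, ih (fun j hj => hx j (by omega)), hx ⟨t, ht⟩ (by simp)]
    · rw [dif_neg ht, dif_neg ht]
      exact ih (fun j hj => hx j (by omega))

lemma measurable_vseq (N : ℕ) {T : ℕ} (t : ℕ) :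
    Measurable (fun p : Row d × (Fin T → Row d) => vseq N p.1 p.2 t) := by
  induction t with
  | zero => exact measurable_const
  | succ t ih =>
    by_cases ht : t < T
    · have : (fun p : Row d × (Fin T → Row d) => vseq N p.1 p.2 (t + 1))
          = fun p => kz (rnd N (vseq N p.1 p.2 t)) (p.2 ⟨t, ht⟩) ⟪p.2 ⟨t, ht⟩, p.1⟫ := by
        ext1 p; rw [vseq, dif_pos ht]
      rw [this]
      have h1 : Measurable (fun p : Row d × (Fin T → Row d) =>
          (rnd N (vseq N p.1 p.2 t), p.2 ⟨t, ht⟩, ⟪p.2 ⟨t, ht⟩, p.1⟫)) := by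
        refine ((measurable_rnd N).comp ih).prodMk (Measurable.prodMk ?_ ?_)
        · fun_prop
        · fun_prop
      exact measurable_kz.comp h1
    · have : (fun p : Row d × (Fin T → Row d) => vseq N p.1 p.2 (t + 1))
          = fun p => vseq N p.1 p.2 t := by
        ext1 p; rw [vseq, dif_neg ht]
      rw [this]; exact ih

end Vale.Agent.H83.Stream
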