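import Vale.Agent.H83.Stream.KzLearner

/-!
# The quantised Kaczmarz learner succeeds
-/

namespace Vale.Agent.H83.Stream

open MeasureTheory ProbabilityTheory
open scoped ENNReal RealInnerProductSpace

variable {d : ℕ}

lemma isProbabilityMeasure_unifSphere (hd : 1 ≤ d) : IsProbabilityMeasure (unifSphere d) := by
  constructor
  unfold unifSphere
  rw [Measure.smul_apply, smul_eq_mul]
  have hAtop : (volume : Measure (Row d)).toSphere Set.univ ≠ ⊤ := measure_ne_top _ _
  have hA0 : (volume : Measure (Row d)).toSphere Set.univ ≠ 0 := by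
    rw [Measure.toSphere_apply_univ]
    have hdim : Module.finrank ℝ (Row d) = d := by simp
    rw [hdim]
    have hb : (volume : Measure (Row d)) (Metric.ball 0 1) ≠ 0 :=
      (Metric.measure_ball_pos volume 0 one_pos).ne'
    have hd0 : (d : ℝ≥0∞) ≠ 0 := by
      have : d ≠ 0 := by omega
      exact_mod_cast this
    exact mul_ne_zero hd0 hb
  exact ENNReal.inv_mul_cancel hA0 hAtop

/-- Integrating out one coordinate of a product of probability measures. -/
lemma lintegral_pi_step {T : ℕ} (γ : Measure (Row d)) [IsProbabilityMeasure γ] (i : Fin T)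
    (f g : (Fin T → Row d) → ℝ≥0∞) (hf : Measurable f) (hg : Measurable g)
    (h : ∀ x, ∫⁻ y, f (Function.update x i y) ∂γ = g x) :
    ∫⁻ x, f x ∂(Measure.pi fun _ : Fin T => γ) = ∫⁻ x, g x ∂(Measure.pi fun _ : Fin T => γ) := by
  have x0 : Fin T → Row d := fun _ => 0
  rw [lintegral_eq_lmarginal_univ x0, lintegral_eq_lmarginal_univ x0,
    lmarginal_erase' f hf (Finset.mem_univ i), lmarginal_erase' g hg (Finset.mem_univ i)]
  have hgc : ∀ x y, g (Function.update x i y) = g x := by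
    intro x y
    rw [← h, ← h]
    simp [Function.update_idem]
  have e1 : (fun x => ∫⁻ y, f (Function.update x i y) ∂γ) = g := funext h
  have e2 : (fun x => ∫⁻ y, g (Function.update x i y) ∂γ) = g := by
    funext x
    simp [hgc]
  rw [e1, e2]

lemma measurable_cosq2 : Measurable (fun q : Row d × Row d => cosq q.1 q.2) := by
  unfold cosq
  fun_prop

/-- The squared error of the rounded estimate after `t` samples. -/
noncomputable def pot (N : ℕ) {T : ℕ} (s : Row d) (x : Fin T → Row d) (t : ℕ) : ℝ :=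
  ‖rnd N (vseq N s x t) - s‖ ^ 2

lemma pot_nonneg (N : ℕ) {T : ℕ} (s : Row d) (x : Fin T → Row d) (t : ℕ) : 0 ≤ pot N s x t := by
  unfold pot; positivity

lemma measurable_pot (N : ℕ) {T : ℕ} (t : ℕ) :
    Measurable (fun p : Row d × (Fin T → Row d) => pot N p.1 p.2 t) := by
  unfold pot
  have h1 : Measurable (fun p : Row d × (Fin T → Row d) => rnd N (vseq N p.1 p.2 t)) :=
    Measurable.comp (g := rnd N) (f := fun p : Row d × (Fin T → Row d) => vseq N p.1 p.2 t)
      (measurable_rnd N) (measurable_vseq N t)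
  have h2 : Measurable (fun p : Row d × (Fin T → Row d) => rnd N (vseq N p.1 p.2 t) - p.1) :=
    h1.sub measurable_fst
  exact h2.norm.pow_const 2

lemma abs_coord_le_one {s : Row d} (hs : ‖s‖ = 1) (i : Fin d) : |s i| ≤ 1 := by
  have h1 : ‖s‖ ^ 2 = ∑ j, (s j) ^ 2 := EuclideanSpace.real_norm_sq_eq s
  have h2 : (s i) ^ 2 ≤ ∑ j, (s j) ^ 2 :=
    Finset.single_le_sum (f := fun j => (s j) ^ 2) (fun j _ => sq_nonneg _) (Finset.mem_univ i)
  rw [← h1, hs] at h2
  have h3 : (s i) ^ 2 ≤ 1 := by simpa using h2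
  exact (sq_le_one_iff_abs_le_one _).1 h3

/-- The squared error after the exact projection at step `t`, before rounding. -/
noncomputable def rem (N : ℕ) {T : ℕ} (s : Row d) (t : ℕ) (ht : t < T) (x : Fin T → Row d) : ℝ :=
  pot N s x t - cosq (rnd N (vseq N s x t) - s) (x ⟨t, ht⟩)

lemma rem_nonneg (N : ℕ) {T : ℕ} (s : Row d) (t : ℕ) (ht : t < T) (x : Fin T → Row d) :
    0 ≤ rem N s t ht x := sub_nonneg.2 (cosq_le _ _)

lemma measurable_pair_left {T : ℕ} (s : Row d) :
    Measurable (fun x : Fin T → Row d => ((s, x) : Row d × (Fin T → Row d))) :=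
  measurable_const.prodMk measurable_id

lemma measurable_vseq_right (N : ℕ) {T : ℕ} (s : Row d) (t : ℕ) :
    Measurable (fun x : Fin T → Row d => vseq N s x t) :=
  Measurable.comp (g := fun p : Row d × (Fin T → Row d) => vseq N p.1 p.2 t)
    (f := fun x : Fin T → Row d => ((s, x) : Row d × (Fin T → Row d)))
    (measurable_vseq N t) (measurable_pair_left s)

lemma measurable_pot_right (N : ℕ) {T : ℕ} (s : Row d) (t : ℕ) :
    Measurable (fun x : Fin T → Row d => pot N s x t) :=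
  Measurable.comp (g := fun p : Row d × (Fin T → Row d) => pot N p.1 p.2 t)
    (f := fun x : Fin T → Row d => ((s, x) : Row d × (Fin T → Row d)))
    (measurable_pot N t) (measurable_pair_left s)

lemma measurable_rem (N : ℕ) {T : ℕ} (s : Row d) (t : ℕ) (ht : t < T) :
    Measurable (rem N s t ht) := by
  unfold rem
  have hmv : Measurable (fun x : Fin T → Row d => vseq N s x t) := measurable_vseq_right N s t
  refine (measurable_pot_right N s t).sub ?_
  have h0 : Measurable (fun x : Fin T → Row d => rnd N (vseq N s x t)) :=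
    Measurable.comp (g := rnd N) (f := fun x : Fin T → Row d => vseq N s x t)
      (measurable_rnd N) hmv
  have h1 : Measurable (fun x : Fin T → Row d => (rnd N (vseq N s x t) - s, x ⟨t, ht⟩)) :=
    (h0.sub_const s).prodMk (measurable_pi_apply _)
  exact Measurable.comp (g := fun q : Row d × Row d => cosq q.1 q.2)
    (f := fun x : Fin T → Row d => (rnd N (vseq N s x t) - s, x ⟨t, ht⟩)) measurable_cosq2 h1

lemma pot_step {N T : ℕ} (hN : 0 < N) {s : Row d} (hs : ‖s‖ = 1) (x : Fin T → Row d)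
    {t : ℕ} (ht : t < T) {a : ℝ} (ha : 0 < a) :
    pot N s x (t + 1) ≤ (1 + a) * rem N s t ht x + (1 + 1 / a) * d / (N : ℝ) ^ 2 := by
  unfold rem pot
  rw [vseq, dif_pos ht]
  have h1 := norm_rnd_sub_sq_le hN (kz (rnd N (vseq N s x t)) (x ⟨t, ht⟩) ⟪x ⟨t, ht⟩, s⟫) s
    (abs_coord_le_one hs) ha
  rw [norm_kz_sub_sq] at h1
  exact h1

lemma rem_update (N : ℕ) {T : ℕ} (s : Row d) (t : ℕ) (ht : t < T) (x : Fin T → Row d)
    (y : Row d) :
    rem N s t ht (Function.update x ⟨t, ht⟩ y)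
      = ‖rnd N (vseq N s x t) - s‖ ^ 2 - cosq (rnd N (vseq N s x t) - s) y := by
  have hv : vseq N s (Function.update x ⟨t, ht⟩ y) t = vseq N s x t := by
    apply vseq_congr
    intro j hj
    rw [Function.update_of_ne]
    intro hji
    rw [hji] at hj
    simp at hj
  unfold rem pot
  rw [hv, Function.update_self]

lemma lintegral_rem (N : ℕ) {T : ℕ} (hd : 1 ≤ d) (s : Row d) (t : ℕ) (ht : t < T) :
    ∫⁻ x, ENNReal.ofReal (rem N s t ht x) ∂(Measure.pi fun _ : Fin T => stdGaussian (Row d))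
      = ∫⁻ x, ENNReal.ofReal ((1 - 1 / d) * pot N s x t)
          ∂(Measure.pi fun _ : Fin T => stdGaussian (Row d)) := by
  refine lintegral_pi_step (stdGaussian (Row d)) ⟨t, ht⟩ _ _ (measurable_rem N s t ht).ennreal_ofReal
    ((measurable_pot_right N s t).const_mul _).ennreal_ofReal ?_
  intro x
  simp_rw [rem_update]
  rw [lintegral_proj hd]
  rfl

lemma lintegral_pot_step {N T : ℕ} (hN : 0 < N) (hd : 1 ≤ d) {s : Row d} (hs : ‖s‖ = 1)
    {t : ℕ} (ht : t < T) {a : ℝ} (ha : 0 < a) :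
    ∫⁻ x, ENNReal.ofReal (pot N s x (t + 1)) ∂(Measure.pi fun _ : Fin T => stdGaussian (Row d))
      ≤ ENNReal.ofReal ((1 + a) * (1 - 1 / d)) *
          ∫⁻ x, ENNReal.ofReal (pot N s x t) ∂(Measure.pi fun _ : Fin T => stdGaussian (Row d))
        + ENNReal.ofReal ((1 + 1 / a) * d / (N : ℝ) ^ 2) := by
  have hb0 : 0 ≤ (1 + 1 / a) * d / (N : ℝ) ^ 2 := by positivity
  have hd1 : (0 : ℝ) ≤ 1 - 1 / d := by
    have h1 : (1 : ℝ) ≤ d := by exact_mod_cast hd
    have h2 : 1 / (d : ℝ) ≤ 1 := by rw [div_le_one (by positivity)]; exact h1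
    linarith
  have hpt : ∀ x : Fin T → Row d, ENNReal.ofReal (pot N s x (t + 1))
      ≤ ENNReal.ofReal (1 + a) * ENNReal.ofReal (rem N s t ht x)
        + ENNReal.ofReal ((1 + 1 / a) * d / (N : ℝ) ^ 2) := by
    intro x
    rw [← ENNReal.ofReal_mul (by linarith), ← ENNReal.ofReal_add
      (mul_nonneg (by linarith) (rem_nonneg N s t ht x)) hb0]
    exact ENNReal.ofReal_le_ofReal (pot_step hN hs x ht ha)
  have hmul : ∫⁻ x, ENNReal.ofReal ((1 - 1 / d) * pot N s x t)
        ∂(Measure.pi fun _ : Fin T => stdGaussian (Row d))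
      = ENNReal.ofReal (1 - 1 / d) * ∫⁻ x, ENNReal.ofReal (pot N s x t)
        ∂(Measure.pi fun _ : Fin T => stdGaussian (Row d)) := by
    rw [← lintegral_const_mul _ (measurable_pot_right N s t).ennreal_ofReal]
    refine lintegral_congr (fun x => ?_)
    rw [ENNReal.ofReal_mul hd1]
  refine (lintegral_mono hpt).trans (le_of_eq ?_)
  rw [lintegral_add_right _ measurable_const,
    lintegral_const_mul _ (measurable_rem N s t ht).ennreal_ofReal,
    lintegral_const, measure_univ, mul_one, lintegral_rem N hd s t ht, hmul, ← mul_assoc,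
    ← ENNReal.ofReal_mul (by linarith)]

lemma lintegral_pot_le {N T : ℕ} (hN : 0 < N) (hd : 1 ≤ d) {s : Row d} (hs : ‖s‖ = 1)
    (t : ℕ) (ht : t ≤ T) :
    ∫⁻ x, ENNReal.ofReal (pot N s x t) ∂(Measure.pi fun _ : Fin T => stdGaussian (Row d))
      ≤ ENNReal.ofReal ((1 - 1 / (2 * (d : ℝ))) ^ t
          + 2 * d * ((1 + 2 * d) * d / (N : ℝ) ^ 2)) := by
  have hdR : (1 : ℝ) ≤ d := by exact_mod_cast hd
  have hd0 : (0 : ℝ) < d := by linarith
  set κ : ℝ := 1 - 1 / (2 * (d : ℝ)) with hκ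
  set b : ℝ := (1 + 2 * d) * d / (N : ℝ) ^ 2 with hb
  have hb0 : 0 ≤ b := by positivity
  have hκ0 : 0 ≤ κ := by
    have : 1 / (2 * (d : ℝ)) ≤ 1 := by
      rw [div_le_one (by positivity)]; linarith
    linarith
  have hκd : 2 * (d : ℝ) * κ = 2 * d - 1 := by
    rw [hκ]; field_simp
  induction t with
  | zero =>
    have h0 : ∀ x : Fin T → Row d, pot N s x 0 = 1 := by
      intro x
      unfold pot
      rw [vseq, rnd_zero, zero_sub, norm_neg, hs]; norm_num
    simp_rw [h0]
    rw [lintegral_const, measure_univ, mul_one]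
    apply ENNReal.ofReal_le_ofReal
    have : 0 ≤ 2 * (d : ℝ) * b := by positivity
    simp only [pow_zero]
    linarith
  | succ t ih =>
    have ht' : t < T := by omega
    have ih' := ih (by omega)
    have ha : (0 : ℝ) < 1 / (2 * (d : ℝ)) := by positivity
    have hstep := lintegral_pot_step hN hd hs ht' ha
    have e1 : (1 + 1 / (1 / (2 * (d : ℝ)))) * d / (N : ℝ) ^ 2 = b := by
      rw [hb]; congr 1; field_simp
    rw [e1] at hstep
    have hκ' : (1 + 1 / (2 * (d : ℝ))) * (1 - 1 / d) ≤ κ := by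
      rw [hκ]
      have h1 : (1 + 1 / (2 * (d : ℝ))) * (1 - 1 / d)
          = 1 - 1 / (2 * (d : ℝ)) - 1 / (2 * (d : ℝ) ^ 2) := by field_simp; ring
      rw [h1]
      have : 0 ≤ 1 / (2 * (d : ℝ) ^ 2) := by positivity
      linarith
    refine hstep.trans ?_
    calc ENNReal.ofReal ((1 + 1 / (2 * (d : ℝ))) * (1 - 1 / d)) *
            ∫⁻ x, ENNReal.ofReal (pot N s x t)
              ∂(Measure.pi fun _ : Fin T => stdGaussian (Row d))
          + ENNReal.ofReal b
        ≤ ENNReal.ofReal κ * ENNReal.ofReal (κ ^ t + 2 * d * b) + ENNReal.ofReal b := by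
          gcongr
      _ = ENNReal.ofReal (κ ^ (t + 1) + 2 * d * b) := by
          rw [← ENNReal.ofReal_mul hκ0, ← ENNReal.ofReal_add (by positivity) hb0]
          congr 1
          rw [pow_succ]
          linear_combination b * hκd

/-- If the estimate is within `ε/2` of the unit vector `s`, its direction is within angle `ε`. -/
lemma arccos_le_of_close {z s : Row d} (hs : ‖s‖ = 1) {ε : ℝ} (hε : 0 < ε) (hε1 : ε ≤ 1)
    (h : ‖z - s‖ ^ 2 ≤ ε ^ 2 / 4) : z ≠ 0 ∧ Real.arccos ⟪‖z‖⁻¹ • z, s⟫ ≤ ε := by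
  have hε2 : ε ^ 2 ≤ 1 := by nlinarith
  have hz : z ≠ 0 := by
    rintro rfl
    rw [zero_sub, norm_neg, hs] at h
    nlinarith
  refine ⟨hz, ?_⟩
  have hr : 0 < ‖z‖ := norm_pos_iff.2 hz
  set r := ‖z‖ with hr'
  have hexp : ‖z - s‖ ^ 2 = r ^ 2 - 2 * ⟪z, s⟫ + 1 := by
    rw [norm_sub_sq_real, hs]; ring
  rw [hexp] at h
  set q : ℝ := 1 - ε ^ 2 / 4 with hq
  have hq0 : 0 ≤ q := by rw [hq]; linarith
  have hq1 : q ≤ 1 := by rw [hq]; nlinarith
  have hc : q ≤ ⟪r⁻¹ • z, s⟫ := by
    rw [real_inner_smul_left, inv_mul_eq_div, le_div_iff₀ hr]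
    nlinarith [sq_nonneg (r - q), mul_nonneg hq0 (sub_nonneg.2 hq1)]
  have hcos : Real.cos ε ≤ q := by
    have hb := Real.cos_bound (x := ε) (by rw [abs_of_pos hε]; exact hε1)
    rw [abs_of_pos hε] at hb
    have h1 := (abs_le.1 hb).2
    have h4 : ε ^ 4 ≤ ε ^ 2 := by nlinarith [sq_nonneg ε]
    rw [hq]
    nlinarith
  calc Real.arccos ⟪r⁻¹ • z, s⟫ ≤ Real.arccos (Real.cos ε) :=
        Real.arccos_le_arccos (hcos.trans hc)
    _ = ε := Real.arccos_cos hε.le (by linarith [Real.pi_gt_three])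

/-- With probability at least `2/3` the squared error after `T` samples is at most `ε²/4`. -/
lemma prob_pot_le {Ω' : Type*} [MeasurableSpace Ω'] (P : Measure Ω') [IsProbabilityMeasure P]
    {N T : ℕ} (hd : 1 ≤ d) {ε : ℝ} (hε : 0 < ε)
    (hN : 144 * (d : ℝ) ^ 3 ≤ ε ^ 2 * (N : ℝ) ^ 2)
    (hT : (1 - 1 / (2 * (d : ℝ))) ^ T ≤ ε ^ 2 / 24) :
    ENNReal.ofReal (2 / 3) ≤
      ((unifSphere d).prod ((Measure.pi fun _ : Fin T => stdGaussian (Row d)).prod P))
        {p : Sph d × ((Fin T → Row d) × Ω') | pot N (p.1 : Row d) p.2.1 T ≤ ε ^ 2 / 4} := by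
  have hdR : (1 : ℝ) ≤ d := by exact_mod_cast hd
  have hN0 : 0 < N := by
    rcases Nat.eq_zero_or_pos N with h0 | h0
    · subst h0
      have : (0 : ℝ) < 144 * (d : ℝ) ^ 3 := by positivity
      simp at hN
      linarith
    · exact h0
  have hNR : (0 : ℝ) < N := by exact_mod_cast hN0
  have hprob := isProbabilityMeasure_unifSphere hd
  have hΦm : Measurable (fun p : Sph d × ((Fin T → Row d) × Ω') => pot N (p.1 : Row d) p.2.1 T) := by
    have h1 : Measurable (fun p : Sph d × ((Fin T → Row d) × Ω') =>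
        (((p.1 : Row d), p.2.1) : Row d × (Fin T → Row d))) :=
      (measurable_subtype_coe.comp measurable_fst).prodMk (measurable_fst.comp measurable_snd)
    exact Measurable.comp (g := fun q : Row d × (Fin T → Row d) => pot N q.1 q.2 T)
      (f := fun p : Sph d × ((Fin T → Row d) × Ω') =>
        (((p.1 : Row d), p.2.1) : Row d × (Fin T → Row d))) (measurable_pot N T) h1
  have hexp : ∫⁻ p, ENNReal.ofReal (pot N (p.1 : Row d) p.2.1 T)
        ∂((unifSphere d).prod ((Measure.pi fun _ : Fin T => stdGaussian (Row d)).prod P))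
      ≤ ENNReal.ofReal (ε ^ 2 / 12) := by
    rw [lintegral_prod _ hΦm.ennreal_ofReal.aemeasurable]
    have hinner : ∀ s : Sph d, ∫⁻ q, ENNReal.ofReal (pot N (s : Row d) q.1 T)
          ∂((Measure.pi fun _ : Fin T => stdGaussian (Row d)).prod P)
        ≤ ENNReal.ofReal (ε ^ 2 / 12) := by
      intro s
      have hm2 : Measurable (fun q : (Fin T → Row d) × Ω' =>
          ENNReal.ofReal (pot N (s : Row d) q.1 T)) :=
        (Measurable.comp (g := fun x : Fin T → Row d => pot N (s : Row d) x T)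
          (f := fun q : (Fin T → Row d) × Ω' => q.1)
          (measurable_pot_right N (s : Row d) T) measurable_fst).ennreal_ofReal
      rw [lintegral_prod _ hm2.aemeasurable]
      simp only [lintegral_const, measure_univ, mul_one]
      have hs : ‖(s : Row d)‖ = 1 := by simp
      refine (lintegral_pot_le hN0 hd hs T le_rfl).trans ?_
      apply ENNReal.ofReal_le_ofReal
      have h1 : 2 * (d : ℝ) * ((1 + 2 * d) * d / (N : ℝ) ^ 2) ≤ ε ^ 2 / 24 := by
        rw [mul_div_assoc', div_le_iff₀ (by positivity)]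
        have h2 : 2 * (d : ℝ) * ((1 + 2 * d) * d) ≤ 6 * (d : ℝ) ^ 3 := by
          have h3 : 0 ≤ (d : ℝ) ^ 2 * ((d : ℝ) - 1) := mul_nonneg (sq_nonneg _) (by linarith)
          nlinarith [h3]
        nlinarith
      linarith
    calc ∫⁻ s, ∫⁻ q, ENNReal.ofReal (pot N (s : Row d) q.1 T)
            ∂((Measure.pi fun _ : Fin T => stdGaussian (Row d)).prod P) ∂(unifSphere d)
        ≤ ∫⁻ _s, ENNReal.ofReal (ε ^ 2 / 12) ∂(unifSphere d) := lintegral_mono hinner
      _ = ENNReal.ofReal (ε ^ 2 / 12) := by simp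
  have hGm : MeasurableSet {p : Sph d × ((Fin T → Row d) × Ω') |
      pot N (p.1 : Row d) p.2.1 T ≤ ε ^ 2 / 4} :=
    measurableSet_le hΦm measurable_const
  have hsub : {p : Sph d × ((Fin T → Row d) × Ω') | pot N (p.1 : Row d) p.2.1 T ≤ ε ^ 2 / 4}ᶜ
      ⊆ {p | ENNReal.ofReal (ε ^ 2 / 4) ≤ ENNReal.ofReal (pot N (p.1 : Row d) p.2.1 T)} := by
    intro p hp
    have hp' : ¬ (pot N (p.1 : Row d) p.2.1 T ≤ ε ^ 2 / 4) := hp
    exact ENNReal.ofReal_le_ofReal (not_le.1 hp').le
  have hpos : ENNReal.ofReal (ε ^ 2 / 4) ≠ 0 := by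
    simp only [ne_eq, ENNReal.ofReal_eq_zero, not_le]; positivity
  have hbad : ((unifSphere d).prod ((Measure.pi fun _ : Fin T => stdGaussian (Row d)).prod P))
      {p : Sph d × ((Fin T → Row d) × Ω') | pot N (p.1 : Row d) p.2.1 T ≤ ε ^ 2 / 4}ᶜ
      ≤ ENNReal.ofReal (1 / 3) := by
    refine (measure_mono hsub).trans ?_
    refine (meas_ge_le_lintegral_div hΦm.ennreal_ofReal.aemeasurable hpos
      ENNReal.ofReal_ne_top).trans ?_
    calc (∫⁻ p, ENNReal.ofReal (pot N (p.1 : Row d) p.2.1 T)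
          ∂((unifSphere d).prod ((Measure.pi fun _ : Fin T => stdGaussian (Row d)).prod P)))
          / ENNReal.ofReal (ε ^ 2 / 4)
        ≤ ENNReal.ofReal (ε ^ 2 / 12) / ENNReal.ofReal (ε ^ 2 / 4) := by gcongr
      _ = ENNReal.ofReal (1 / 3) := by
          rw [← ENNReal.ofReal_div_of_pos (by positivity)]
          congr 1
          field_simp
          norm_num
  have h1 : ((unifSphere d).prod ((Measure.pi fun _ : Fin T => stdGaussian (Row d)).prod P))
      {p : Sph d × ((Fin T → Row d) × Ω') | pot N (p.1 : Row d) p.2.1 T ≤ ε ^ 2 / 4}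
      = 1 - ((unifSphere d).prod ((Measure.pi fun _ : Fin T => stdGaussian (Row d)).prod P))
        {p : Sph d × ((Fin T → Row d) × Ω') | pot N (p.1 : Row d) p.2.1 T ≤ ε ^ 2 / 4}ᶜ := by
    rw [prob_compl_eq_one_sub hGm, ENNReal.sub_sub_cancel ENNReal.one_ne_top prob_le_one]
  rw [h1]
  calc ENNReal.ofReal (2 / 3) = 1 - ENNReal.ofReal (1 / 3) := by
        rw [← ENNReal.ofReal_one, ← ENNReal.ofReal_sub _ (by norm_num)]
        congr 1; norm_num
    _ ≤ _ := tsub_le_tsub_left hbad 1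

/-- The quantised Kaczmarz learner succeeds at accuracy `ε` as soon as the grid is fine enough
(`N ≥ 12 d^(3/2)/ε`), the memory holds the grid (`(2N+1)^d ≤ 2^M`), and the horizon satisfies
`(1 - 1/(2d))^T ≤ ε²/24`. -/
theorem kzLearner_succeeds (d M T N : ℕ) (hd : 1 ≤ d) (ε : ℝ) (hε : 0 < ε) (hε1 : ε ≤ 1)
    (hN : 144 * (d : ℝ) ^ 3 ≤ ε ^ 2 * (N : ℝ) ^ 2)
    (hM : (2 * N + 1) ^ d ≤ 2 ^ M)
    (hT : (1 - 1 / (2 * (d : ℝ))) ^ T ≤ ε ^ 2 / 24) :
    (kzLearner d M T N hd hM).Succeeds ε := by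
  unfold Learner.Succeeds Learner.successProb
  have h23 : (2 / 3 : ℝ≥0∞) = ENNReal.ofReal (2 / 3) := by
    rw [ENNReal.ofReal_div_of_pos (by norm_num)]; simp
  rw [h23]
  refine (prob_pot_le (kzLearner d M T N hd hM).coins hd hε hN hT).trans (measure_mono ?_)
  intro p hp
  change pot N (p.1 : Row d) p.2.1 T ≤ ε ^ 2 / 4 at hp
  show Real.arccos (inner ℝ (((kzLearner d M T N hd hM).out
    ((kzLearner d M T N hd hM).finalState p.1 p.2.1 p.2.2) p.2.2 : Sph d) : Row d) (p.1 : Row d))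
      ≤ ε
  have hs : ‖(p.1 : Row d)‖ = 1 := by simp
  obtain ⟨hz, hang⟩ := arccos_le_of_close hs hε hε1 hp
  rw [out_kzLearner M T N hd hM p.1 p.2.1 p.2.2, outVec_coe hd hz]
  exact hang

end Vale.Agent.H83.Stream
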