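import Vale.Agent.H83.Stream.LinMain

/-!
# Sample lower bound for linear-memory learners: the final statement
-/

namespace Vale.Agent.H83.Stream

open MeasureTheory ProbabilityTheory
open scoped ENNReal RealInnerProductSpace

variable {d k T : ℕ}

/-- If a nonzero vector of the subspace `U` points within angle `ε` of the unit vector `s`, then
`s` is within distance `ε` of `U`. -/
lemma infDist_le_of_arccos {s v : Row d} (hs : ‖s‖ = 1) (U : Submodule ℝ (Row d)) (hv : v ∈ U)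
    (hv0 : v ≠ 0) {ε : ℝ} (hε : 0 < ε) (hε1 : ε ≤ 1)
    (h : Real.arccos ⟪‖v‖⁻¹ • v, s⟫ ≤ ε) :
    Metric.infDist s (U : Set (Row d)) ≤ ε := by
  set u := ‖v‖⁻¹ • v with hu
  have hun : ‖u‖ = 1 := by
    rw [hu, norm_smul, norm_inv, norm_norm, inv_mul_cancel₀ (norm_ne_zero_iff.2 hv0)]
  set t := ⟪u, s⟫ with ht
  have ht1 : |t| ≤ 1 := by
    have := abs_real_inner_le_norm u s
    rw [hun, hs] at this
    simpa using this
  have hpi := Real.pi_gt_three
  have hcos : Real.cos ε ≤ t := by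
    have h1 := Real.cos_le_cos_of_nonneg_of_le_pi (Real.arccos_nonneg t) (by linarith) h
    rwa [Real.cos_arccos (by linarith [(abs_le.1 ht1).1]) (by linarith [(abs_le.1 ht1).2])] at h1
  have hcpos : 0 < Real.cos ε :=
    Real.cos_pos_of_mem_Ioo ⟨by linarith, by linarith⟩
  have hy : t • u ∈ U := U.smul_mem _ (U.smul_mem _ hv)
  have hdist : ‖s - t • u‖ ^ 2 = 1 - t ^ 2 := by
    rw [norm_sub_sq_real, hs, inner_smul_right, real_inner_comm, ← ht, norm_smul, hun,
      Real.norm_eq_abs, mul_one, sq_abs]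
    ring
  have hsin : 1 - t ^ 2 ≤ ε ^ 2 := by
    have h1 : Real.cos ε ^ 2 ≤ t ^ 2 := pow_le_pow_left₀ hcpos.le hcos 2
    have h2 : Real.sin ε ^ 2 + Real.cos ε ^ 2 = 1 := Real.sin_sq_add_cos_sq ε
    have h3 : Real.sin ε ≤ ε := Real.sin_le hε.le
    have h4 : 0 ≤ Real.sin ε := Real.sin_nonneg_of_nonneg_of_le_pi hε.le (by linarith)
    nlinarith
  have hle : ‖s - t • u‖ ≤ ε := by
    have h5 : ‖s - t • u‖ ^ 2 ≤ ε ^ 2 := by rw [hdist]; exact hsin
    exact (pow_le_pow_iff_left₀ (norm_nonneg _) hε.le two_ne_zero).1 h5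
  calc Metric.infDist s (U : Set (Row d)) ≤ dist s (t • u) := Metric.infDist_le_dist_of_mem hy
    _ = ‖s - t • u‖ := dist_eq_norm _ _
    _ ≤ ε := hle

/-- A linear-memory learner with `k` stored vectors that succeeds at accuracy `ε` uses at least
`(d - k - 3) * log (2 / (3 ε²))` samples. -/
theorem LinLearner.horizon_ge (L : LinLearner d k T) (hd : k + 4 ≤ d) {ε : ℝ} (hε : 0 < ε)
    (hε1 : ε ≤ 1) (hL : L.Succeeds ε) :
    ((d : ℝ) - k - 3) * Real.log (2 / (3 * ε ^ 2)) ≤ T := by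
  have hdR : ((k : ℝ) + 4) ≤ d := by exact_mod_cast hd
  have hδ : 0 < (d : ℝ) - k - 3 := by linarith
  set ρ : ℝ := 1 + 1 / ((d : ℝ) - k - 3) with hρ
  have hρpos : 0 < ρ := by rw [hρ]; positivity
  have hprob := isProbabilityMeasure_unifSphere (d := d) (by omega)
  have hint : ∫⁻ p, L.pot T p
      ∂((unifSphere d).prod ((Measure.pi fun _ : Fin T => stdGaussian (Row d)).prod L.coins))
      ≤ ENNReal.ofReal ρ ^ T := by
    rw [lintegral_prod _ (L.measurable_pot T).aemeasurable]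
    have hinner : ∀ s : Sph d, ∫⁻ q, L.pot T (s, q)
        ∂((Measure.pi fun _ : Fin T => stdGaussian (Row d)).prod L.coins)
        ≤ ENNReal.ofReal ρ ^ T := by
      intro s
      have hm : Measurable (fun q : (Fin T → Row d) × L.Ω => L.pot T (s, q)) :=
        Measurable.comp (g := L.pot T)
          (f := fun q : (Fin T → Row d) × L.Ω => ((s, q) : Sph d × ((Fin T → Row d) × L.Ω)))
          (L.measurable_pot T) (measurable_const.prodMk measurable_id)
      rw [lintegral_prod_symm _ hm.aemeasurable]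
      calc ∫⁻ ω, ∫⁻ x, L.pot T (s, (x, ω)) ∂(Measure.pi fun _ : Fin T => stdGaussian (Row d))
              ∂L.coins
          ≤ ∫⁻ _ω, ENNReal.ofReal ρ ^ T ∂L.coins :=
            lintegral_mono (fun ω => L.lintegral_pot_le hd s ω T le_rfl)
        _ = ENNReal.ofReal ρ ^ T := by simp
    calc ∫⁻ s, ∫⁻ q, L.pot T (s, q)
            ∂((Measure.pi fun _ : Fin T => stdGaussian (Row d)).prod L.coins) ∂(unifSphere d)
        ≤ ∫⁻ _s, ENNReal.ofReal ρ ^ T ∂(unifSphere d) := lintegral_mono hinner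
      _ = ENNReal.ofReal ρ ^ T := by simp
  have hsub : {p : Sph d × ((Fin T → Row d) × L.Ω) | L.output p.1 p.2.1 p.2.2 ≠ 0 ∧
      Real.arccos (inner ℝ (‖L.output p.1 p.2.1 p.2.2‖⁻¹ • L.output p.1 p.2.1 p.2.2)
        (p.1 : Row d)) ≤ ε} ⊆ {p | (ENNReal.ofReal (ε ^ 2))⁻¹ ≤ L.pot T p} := by
    rintro p ⟨hv0, hang⟩
    have hs : ‖(p.1 : Row d)‖ = 1 := by simp
    have hmem := L.out_mem (L.run p.1 p.2.1 p.2.2 T) p.2.2
    have hle := infDist_le_of_arccos hs _ hmem hv0 hε hε1 hang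
    show (ENNReal.ofReal (ε ^ 2))⁻¹ ≤ L.pot T p
    unfold LinLearner.pot ipot
    apply ENNReal.inv_le_inv.2
    apply ENNReal.ofReal_le_ofReal
    exact pow_le_pow_left₀ Metric.infDist_nonneg hle 2
  have hε2 : ENNReal.ofReal (ε ^ 2) ≠ 0 := by
    simp only [ne_eq, ENNReal.ofReal_eq_zero, not_le]; positivity
  have hmarkov : L.successProb ε ≤ ENNReal.ofReal ρ ^ T * ENNReal.ofReal (ε ^ 2) := by
    unfold LinLearner.successProb
    refine (measure_mono hsub).trans ?_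
    refine (meas_ge_le_lintegral_div (L.measurable_pot T).aemeasurable
      (ENNReal.inv_ne_zero.2 ENNReal.ofReal_ne_top) (ENNReal.inv_ne_top.2 hε2)).trans ?_
    rw [ENNReal.div_eq_inv_mul, inv_inv, mul_comm]
    gcongr
  have h23 : ENNReal.ofReal (2 / 3) ≤ ENNReal.ofReal (ρ ^ T * ε ^ 2) := by
    have h1 : (2 / 3 : ℝ≥0∞) ≤ ENNReal.ofReal ρ ^ T * ENNReal.ofReal (ε ^ 2) := hL.trans hmarkov
    have h23' : (2 / 3 : ℝ≥0∞) = ENNReal.ofReal (2 / 3) := by
      rw [ENNReal.ofReal_div_of_pos (by norm_num)]; simp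
    rw [h23', ← ENNReal.ofReal_pow hρpos.le, ← ENNReal.ofReal_mul (by positivity)] at h1
    exact h1
  have hreal : (2 / 3 : ℝ) ≤ ρ ^ T * ε ^ 2 :=
    (ENNReal.ofReal_le_ofReal_iff (by positivity)).1 h23
  have h1 : 2 / (3 * ε ^ 2) ≤ ρ ^ T := by
    rw [div_le_iff₀ (by positivity)]; linarith
  have h2 : Real.log (2 / (3 * ε ^ 2)) ≤ T * Real.log ρ := by
    rw [← Real.log_pow]
    exact Real.log_le_log (by positivity) h1
  have h3 : Real.log ρ ≤ 1 / ((d : ℝ) - k - 3) := by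
    have := Real.log_le_sub_one_of_pos hρpos
    rw [hρ] at this ⊢
    linarith
  calc ((d : ℝ) - k - 3) * Real.log (2 / (3 * ε ^ 2))
      ≤ ((d : ℝ) - k - 3) * (T * Real.log ρ) := by gcongr
    _ ≤ ((d : ℝ) - k - 3) * (T * (1 / ((d : ℝ) - k - 3))) := by gcongr
    _ = T := by field_simp

end Vale.Agent.H83.Stream
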