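import Vale.Agent.H83.Stream.LinGaussPi

/-!
# A ratio of squared coordinates of a standard Gaussian vector along an orthonormal family
-/

namespace Vale.Agent.H83.Stream

open MeasureTheory ProbabilityTheory
open scoped ENNReal RealInnerProductSpace

/-- An orthonormal family indexed by `Fin (m + 1)` in `Row d` forces `m + 1 ≤ d`. -/
lemma ling2_card_le {d m : ℕ} (w : Fin (m + 1) → Row d) (hw : Orthonormal ℝ w) : m + 1 ≤ d := by
  have h := hw.linearIndependent.fintype_card_le_finrank
  simpa using h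

/-- Extension of an orthonormal family indexed by `Fin (m + 1)` to an orthonormal basis of
`Row d` indexed by `Fin d`, the family sitting on the first `m + 1` indices. -/
lemma ling2_extend {d m : ℕ} (w : Fin (m + 1) → Row d) (hw : Orthonormal ℝ w) :
    ∃ b : OrthonormalBasis (Fin d) ℝ (Row d),
      ∀ (i : Fin d) (h : i.val < m + 1), b i = w ⟨i.val, h⟩ := by
  classical
  let v : Fin d → Row d := fun i => if h : i.val < m + 1 then w ⟨i.val, h⟩ else 0
  let s : Set (Fin d) := {i | i.val < m + 1}
  have hcard : Module.finrank ℝ (Row d) = Fintype.card (Fin d) := by simp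
  have hv : Orthonormal ℝ (s.domRestrict v) := by
    have hfun : s.domRestrict v = w ∘ (fun i : s => (⟨i.1.val, i.2⟩ : Fin (m + 1))) := by
      funext i
      have hi : i.1.val < m + 1 := i.2
      show (if h : i.1.val < m + 1 then w ⟨i.1.val, h⟩ else 0) = w ⟨i.1.val, i.2⟩
      rw [dif_pos hi]
    rw [hfun]
    refine hw.comp _ ?_
    intro i j hij
    have h1 : i.1.val = j.1.val := by simpa using congrArg Fin.val hij
    exact Subtype.ext (Fin.ext h1)
  obtain ⟨b, hb⟩ := Orthonormal.exists_orthonormalBasis_extension_of_card_eq hcard hv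
  refine ⟨b, fun i h => ?_⟩
  have h2 : b i = v i := hb i h
  rw [h2]
  show (if h' : i.val < m + 1 then w ⟨i.val, h'⟩ else 0) = w ⟨i.val, h⟩
  rw [dif_pos h]

/-- Board row G2. -/
theorem gauss_ratio_le {d m : ℕ} (hm : 3 ≤ m) (w : Fin (m + 1) → Row d) (hw : Orthonormal ℝ w) :
    ∫⁻ x, ENNReal.ofReal (⟪w 0, x⟫ ^ 2) / ENNReal.ofReal (∑ i : Fin m, ⟪w i.succ, x⟫ ^ 2)
      ∂(stdGaussian (Row d)) ≤ ENNReal.ofReal (1 / ((m : ℝ) - 2)) := by
  classical
  have hmd : m + 1 ≤ d := ling2_card_le w hw
  obtain ⟨b, hb⟩ := ling2_extend w hw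
  have h0d : 0 < d := by omega
  let i0 : Fin d := ⟨0, h0d⟩
  let jj : Fin m → Fin d := fun i => ⟨i.val + 1, by have := i.2; omega⟩
  have hjj : Function.Injective jj := by
    intro a c hac
    have : a.val + 1 = c.val + 1 := by simpa [jj] using congrArg Fin.val hac
    exact Fin.ext (by omega)
  let J : Finset (Fin d) := Finset.univ.image jj
  have hJcard : J.card = m := by
    simp [J, Finset.card_image_of_injective _ hjj]
  have hi0J : i0 ∉ J := by
    intro hmem
    obtain ⟨a, -, ha⟩ := Finset.mem_image.mp hmem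
    have : a.val + 1 = 0 := by simpa [jj, i0] using congrArg Fin.val ha
    omega
  -- the integrand in coordinates
  let G : Row d → ℝ≥0∞ := fun y =>
    ENNReal.ofReal (y i0 ^ 2) / ENNReal.ofReal (∑ i : Fin m, y (jj i) ^ 2)
  have hb0 : b i0 = w 0 := by
    have := hb i0 (by simp [i0])
    simpa [i0] using this
  have hbj : ∀ i : Fin m, b (jj i) = w i.succ := by
    intro i
    have := hb (jj i) (by simp [jj])
    simpa [jj, Fin.succ] using this
  have hG : ∀ x : Row d, ENNReal.ofReal (⟪w 0, x⟫ ^ 2) /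
      ENNReal.ofReal (∑ i : Fin m, ⟪w i.succ, x⟫ ^ 2) = G (b.repr x) := by
    intro x
    simp only [G, OrthonormalBasis.repr_apply_apply, hb0, hbj]
  simp_rw [hG]
  -- change of variables by the isometry `b.repr`
  have hmap : (stdGaussian (Row d)).map b.repr = stdGaussian (Row d) :=
    stdGaussian_map (E := Row d) b.repr
  have h1 : ∫⁻ x, G (b.repr x) ∂(stdGaussian (Row d)) = ∫⁻ y, G y ∂(stdGaussian (Row d)) := by
    have := lintegral_map_equiv (μ := stdGaussian (Row d)) G
      (b.repr.toHomeomorph.toMeasurableEquiv)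
    rw [show (stdGaussian (Row d)).map (b.repr.toHomeomorph.toMeasurableEquiv)
      = stdGaussian (Row d) from hmap] at this
    rw [this]
    rfl
  rw [h1]
  -- pass to the product measure
  have h2 : ∫⁻ y, G y ∂(stdGaussian (Row d)) =
      ∫⁻ f, G (WithLp.toLp 2 f) ∂(Measure.pi fun _ : Fin d => gaussianReal 0 1) := by
    rw [← map_pi_eq_stdGaussian]
    exact lintegral_map_equiv G (MeasurableEquiv.toLp 2 (Fin d → ℝ))
  rw [h2]
  have h3 : ∀ f : Fin d → ℝ, G (WithLp.toLp 2 f) =
      ENNReal.ofReal (f i0 ^ 2) / ENNReal.ofReal (∑ j ∈ J, f j ^ 2) := by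
    intro f
    simp only [G, J]
    rw [Finset.sum_image (fun a _ c _ h => hjj h)]
  simp_rw [h3]
  exact pi_gauss_ratio_le hm i0 J hJcard hi0J

end Vale.Agent.H83.Stream
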