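import Vale.Agent.H83.Stream.Model

/-!
# A ratio of squares of independent standard Gaussians

For independent standard Gaussians `f i`, a coordinate `i0` and a set `J` of `m ≥ 3` other
coordinates, the mean of `(f i0)^2 / ∑ j ∈ J, (f j)^2` is at most `1/(m-2)` (it is equal to it).
-/

namespace Vale.Agent.H83.Stream
open MeasureTheory ProbabilityTheory
open scoped ENNReal

/-- Laplace bound: `A / R ≤ ∫_0^∞ A e^{-tR} dt` in the extended nonnegatives. -/
theorem ling1_laplace (A R : ℝ) (hA : 0 ≤ A) (hR : 0 ≤ R) :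
    ENNReal.ofReal A / ENNReal.ofReal R ≤
      ∫⁻ t in Set.Ioi (0 : ℝ), ENNReal.ofReal (A * Real.exp (-t * R)) := by
  rcases hR.eq_or_lt with hR0 | hRpos
  · subst hR0
    rcases hA.eq_or_lt with hA0 | hApos
    · subst hA0; simp
    · simp only [mul_zero, Real.exp_zero, mul_one, lintegral_const, Measure.restrict_apply_univ,
        Real.volume_Ioi]
      rw [ENNReal.mul_top (by simpa using hApos)]
      exact le_top
  · have h1 : ∫ t in Set.Ioi (0 : ℝ), A * Real.exp (-t * R) = A / R := by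
      have h3 := integral_exp_mul_Ioi (a := -R) (by linarith) 0
      have h2 : (fun t : ℝ => A * Real.exp (-t * R)) = fun t => A * Real.exp (-R * t) := by
        funext t; ring_nf
      rw [h2, integral_const_mul, h3]
      simp
      field_simp
    have hint : IntegrableOn (fun t : ℝ => A * Real.exp (-t * R)) (Set.Ioi 0) := by
      have h3 := (integrableOn_exp_mul_Ioi (a := -R) (by linarith) 0).const_mul A
      have h2 : (fun t : ℝ => A * Real.exp (-t * R)) = fun t => A * Real.exp (-R * t) := by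
        funext t; ring_nf
      rw [h2]
      exact h3
    rw [← ofReal_integral_eq_lintegral_ofReal hint (ae_of_all _ fun t => by positivity), h1,
      ENNReal.ofReal_div_of_pos hRpos]

/-- The second moment of the standard Gaussian is one. -/
theorem ling1_second_moment :
    ∫⁻ x, ENNReal.ofReal (x ^ 2) ∂(gaussianReal 0 1) = 1 := by
  have hm : MemLp (id : ℝ → ℝ) 2 (gaussianReal 0 1) := by
    simpa using memLp_id_gaussianReal (μ := 0) (v := 1) 2
  have hv : Var[id; gaussianReal 0 1] = ∫ x, x ^ 2 ∂(gaussianReal 0 1) := by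
    rw [variance_of_integral_eq_zero aemeasurable_id]
    · rfl
    · simp
  rw [variance_id_gaussianReal] at hv
  have h2 := ofReal_integral_eq_lintegral_ofReal hm.integrable_sq
    (ae_of_all _ fun x => by positivity)
  simp only [id] at h2
  rw [← h2, ← hv]
  simp

/-- The Laplace transform of the square of a standard Gaussian. -/
theorem ling1_mgf (t : ℝ) (ht : 0 < t) :
    ∫⁻ x, ENNReal.ofReal (Real.exp (-t * x ^ 2)) ∂(gaussianReal 0 1) =
      ENNReal.ofReal ((1 + 2 * t) ^ (-(1 / 2 : ℝ))) := by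
  have hint : Integrable (fun x : ℝ => Real.exp (-t * x ^ 2)) (gaussianReal 0 1) := by
    refine Integrable.of_bound (by fun_prop) 1 (ae_of_all _ fun x => ?_)
    rw [Real.norm_eq_abs, abs_of_pos (Real.exp_pos _)]
    exact Real.exp_le_one_iff.mpr (by nlinarith [sq_nonneg x])
  rw [← ofReal_integral_eq_lintegral_ofReal hint (ae_of_all _ fun x => (Real.exp_pos _).le)]
  congr 1
  rw [integral_gaussianReal_eq_integral_smul (by simp)]
  have h2 : (fun x : ℝ => gaussianPDFReal 0 1 x • Real.exp (-t * x ^ 2)) =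
      fun x => (√(2 * Real.pi))⁻¹ * Real.exp (-(1 / 2 + t) * x ^ 2) := by
    funext x
    simp only [gaussianPDFReal, smul_eq_mul, NNReal.coe_one, mul_one, sub_zero]
    rw [mul_assoc, ← Real.exp_add]
    congr 2
    ring
  rw [h2, integral_const_mul, integral_gaussian]
  have hpos : (0 : ℝ) < 1 + 2 * t := by linarith
  have h3 : Real.pi / (1 / 2 + t) = (2 * Real.pi) / (1 + 2 * t) := by
    field_simp
  rw [h3, Real.sqrt_div (by positivity), Real.rpow_neg hpos.le, ← Real.sqrt_eq_rpow]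
  have h4 : √(2 * Real.pi) ≠ 0 := by positivity
  field_simp

/-- The tail integral. -/
theorem ling1_tail (m : ℕ) (hm : 3 ≤ m) :
    ∫⁻ t in Set.Ioi (0 : ℝ), ENNReal.ofReal ((1 + 2 * t) ^ (-((m : ℝ) / 2))) =
      ENNReal.ofReal (1 / ((m : ℝ) - 2)) := by
  have hm' : (3 : ℝ) ≤ m := by exact_mod_cast hm
  have hm2 : (m : ℝ) - 2 ≠ 0 := by
    have : (0 : ℝ) < (m : ℝ) - 2 := by linarith
    exact this.ne'
  set g : ℝ → ℝ := fun t => -(1 + 2 * t) ^ (1 - (m : ℝ) / 2) / ((m : ℝ) - 2) with hg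
  have hderiv : ∀ x ∈ Set.Ici (0 : ℝ), HasDerivAt g ((1 + 2 * x) ^ (-((m : ℝ) / 2))) x := by
    intro x hx
    have hx0 : (0 : ℝ) ≤ x := hx
    have hpos : 0 < 1 + 2 * x := by linarith
    have h1 : HasDerivAt (fun t : ℝ => 1 + 2 * t) 2 x := by
      simpa using ((hasDerivAt_id x).const_mul 2).const_add 1
    have h2 := h1.rpow_const (p := 1 - (m : ℝ) / 2) (Or.inl hpos.ne')
    have h3 := (h2.neg).div_const ((m : ℝ) - 2)
    have h4 : (1 - (m : ℝ) / 2 - 1) = -((m : ℝ) / 2) := by ring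
    have h5 : -(2 * (1 - (m : ℝ) / 2) * (1 + 2 * x) ^ (1 - (m : ℝ) / 2 - 1)) / ((m : ℝ) - 2) =
        (1 + 2 * x) ^ (-((m : ℝ) / 2)) := by
      rw [h4]
      field_simp
      ring
    rw [h5] at h3
    exact h3
  have hnonneg : ∀ x ∈ Set.Ioi (0 : ℝ), 0 ≤ (1 + 2 * x) ^ (-((m : ℝ) / 2)) := by
    intro x hx
    have hx0 : (0 : ℝ) < x := hx
    positivity
  have hlim : Filter.Tendsto g Filter.atTop (nhds 0) := by
    have h1 : Filter.Tendsto (fun t : ℝ => 1 + 2 * t) Filter.atTop Filter.atTop := by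
      apply Filter.tendsto_atTop_add_const_left
      exact Filter.Tendsto.const_mul_atTop (by norm_num) Filter.tendsto_id
    have h2 := (tendsto_rpow_neg_atTop (y := (m : ℝ) / 2 - 1) (by linarith)).comp h1
    have h3 := (h2.neg).div_const ((m : ℝ) - 2)
    simp only [neg_zero, zero_div] at h3
    refine h3.congr (fun t => ?_)
    simp only [hg, Function.comp]
    have h4 : -((m : ℝ) / 2 - 1) = 1 - (m : ℝ) / 2 := by ring
    rw [h4]
  have hI := integral_Ioi_of_hasDerivAt_of_nonneg' hderiv hnonneg hlim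
  have hInt := integrableOn_Ioi_deriv_of_nonneg' hderiv hnonneg hlim
  rw [← ofReal_integral_eq_lintegral_ofReal hInt
    ((ae_restrict_iff' measurableSet_Ioi).mpr (ae_of_all _ hnonneg)), hI]
  congr 1
  simp only [hg]
  simp
  field_simp


/-- For a fixed Laplace parameter the integrand is a product over the coordinates. -/
theorem ling1_fixed {n m : ℕ} (i0 : Fin n) (J : Finset (Fin n)) (hJ : J.card = m)
    (hi0 : i0 ∉ J) (t : ℝ) (ht : 0 < t) :
    ∫⁻ f, ENNReal.ofReal (f i0 ^ 2 * Real.exp (-t * ∑ j ∈ J, f j ^ 2))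
      ∂(Measure.pi fun _ : Fin n => gaussianReal 0 1) =
      ENNReal.ofReal ((1 + 2 * t) ^ (-((m : ℝ) / 2))) := by
  classical
  set g : Fin n → ℝ → ℝ≥0∞ := fun i x =>
    (if i = i0 then ENNReal.ofReal (x ^ 2) else 1) *
      (if i ∈ J then ENNReal.ofReal (Real.exp (-t * x ^ 2)) else 1) with hg
  have hgm : ∀ i, Measurable (g i) := by
    intro i
    simp only [hg]
    split_ifs <;> fun_prop
  have hpt : ∀ f : Fin n → ℝ,
      ENNReal.ofReal (f i0 ^ 2 * Real.exp (-t * ∑ j ∈ J, f j ^ 2)) = ∏ i, g i (f i) := by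
    intro f
    simp only [hg]
    rw [Finset.prod_mul_distrib, Finset.prod_ite_eq' Finset.univ i0, Finset.prod_ite_mem,
      Finset.univ_inter, if_pos (Finset.mem_univ i0), ENNReal.ofReal_mul (sq_nonneg _),
      Finset.mul_sum, Real.exp_sum, ENNReal.ofReal_prod_of_nonneg (fun i _ => (Real.exp_pos _).le)]
  have hind : iIndepFun (fun i (ω : Fin n → ℝ) => g i (ω i))
      (Measure.pi fun _ : Fin n => gaussianReal 0 1) :=
    iIndepFun_pi (fun i => (hgm i).aemeasurable)
  have hprod := lintegral_prod_eq_prod_lintegral_of_indepFun Finset.univ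
    (fun i (ω : Fin n → ℝ) => g i (ω i)) hind (fun i => (hgm i).comp (measurable_pi_apply i))
  have heval : ∀ i, ∫⁻ ω : Fin n → ℝ, g i (ω i) ∂(Measure.pi fun _ : Fin n => gaussianReal 0 1) =
      if i ∈ J then ENNReal.ofReal ((1 + 2 * t) ^ (-(1 / 2 : ℝ))) else 1 := by
    intro i
    have h1 := (measurePreserving_eval (fun _ : Fin n => gaussianReal 0 1) i).lintegral_comp (hgm i)
    rw [h1]
    simp only [hg]
    by_cases h2 : i = i0
    · have h3 : i ∉ J := by rw [h2]; exact hi0
      simp only [h2, if_true, hi0, if_false, mul_one]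
      exact ling1_second_moment
    · by_cases h3 : i ∈ J
      · simp only [h2, h3, if_true, if_false, one_mul]
        exact ling1_mgf t ht
      · simp only [h2, h3, if_false, one_mul]
        simp
  simp_rw [hpt]
  rw [hprod]
  simp_rw [heval]
  rw [Finset.prod_ite_mem, Finset.univ_inter, Finset.prod_const, hJ,
    ← ENNReal.ofReal_pow (by positivity), ← Real.rpow_mul_natCast (by positivity)]
  congr 2
  ring

/-- Board row G1. -/
theorem pi_gauss_ratio_le {n m : ℕ} (hm : 3 ≤ m) (i0 : Fin n) (J : Finset (Fin n))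
    (hJ : J.card = m) (hi0 : i0 ∉ J) :
    ∫⁻ f, ENNReal.ofReal (f i0 ^ 2) / ENNReal.ofReal (∑ j ∈ J, f j ^ 2)
      ∂(Measure.pi fun _ : Fin n => gaussianReal 0 1) ≤ ENNReal.ofReal (1 / ((m : ℝ) - 2)) := by
  calc ∫⁻ f, ENNReal.ofReal (f i0 ^ 2) / ENNReal.ofReal (∑ j ∈ J, f j ^ 2)
        ∂(Measure.pi fun _ : Fin n => gaussianReal 0 1)
      ≤ ∫⁻ f, (∫⁻ t in Set.Ioi (0 : ℝ),
          ENNReal.ofReal (f i0 ^ 2 * Real.exp (-t * ∑ j ∈ J, f j ^ 2)))
        ∂(Measure.pi fun _ : Fin n => gaussianReal 0 1) :=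
        lintegral_mono fun f => ling1_laplace _ _ (sq_nonneg _)
          (Finset.sum_nonneg fun j _ => sq_nonneg _)
    _ = ∫⁻ t in Set.Ioi (0 : ℝ), ∫⁻ f,
          ENNReal.ofReal (f i0 ^ 2 * Real.exp (-t * ∑ j ∈ J, f j ^ 2))
        ∂(Measure.pi fun _ : Fin n => gaussianReal 0 1) := by
        apply lintegral_lintegral_swap
        apply Measurable.aemeasurable
        apply Measurable.ennreal_ofReal
        fun_prop
    _ = ∫⁻ t in Set.Ioi (0 : ℝ), ENNReal.ofReal ((1 + 2 * t) ^ (-((m : ℝ) / 2))) :=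
        setLIntegral_congr_fun measurableSet_Ioi fun t ht => ling1_fixed i0 J hJ hi0 t ht
    _ = ENNReal.ofReal (1 / ((m : ℝ) - 2)) := ling1_tail m hm

end Vale.Agent.H83.Stream
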