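import Vale.Agent.H83.Stream.LinGauss

/-!
# One more Gaussian direction improves the distance to a subspace only slowly
-/

namespace Vale.Agent.H83.Stream

open MeasureTheory ProbabilityTheory
open scoped ENNReal RealInnerProductSpace

variable {d : ℕ}

/-- The distance to a subspace is the norm of the residual of the orthogonal projection. -/
lemma infDist_eq_norm_sub_proj (s : Row d) (U : Submodule ℝ (Row d)) :
    Metric.infDist s (U : Set (Row d)) = ‖s - U.starProjection s‖ := by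
  apply le_antisymm
  · have h := Metric.infDist_le_dist_of_mem (x := s) (U.starProjection_apply_mem s)
    rwa [dist_eq_norm] at h
  · by_contra hlt
    rw [not_le] at hlt
    obtain ⟨y, hy, hyd⟩ := (Metric.infDist_lt_iff ⟨0, U.zero_mem⟩).1 hlt
    rw [dist_eq_norm] at hyd
    have hq : U.starProjection s - y ∈ U := U.sub_mem (U.starProjection_apply_mem s) hy
    have horth : ⟪s - U.starProjection s, U.starProjection s - y⟫ = 0 :=
      Submodule.starProjection_inner_eq_zero s _ hq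
    have hsplit : s - y = (s - U.starProjection s) + (U.starProjection s - y) := by abel
    have hsq : ‖s - y‖ ^ 2 = ‖s - U.starProjection s‖ ^ 2 + ‖U.starProjection s - y‖ ^ 2 := by
      rw [hsplit, norm_add_sq_real, horth]; ring
    have h1 : ‖s - U.starProjection s‖ ^ 2 ≤ ‖s - y‖ ^ 2 := by
      rw [hsq]; nlinarith [sq_nonneg ‖U.starProjection s - y‖]
    have h2 : ‖s - U.starProjection s‖ ≤ ‖s - y‖ :=
      le_of_sq_le_sq h1 (norm_nonneg _) |> fun h => h
    linarith

/-- Adding the direction `x` to the subspace `U`: a lower bound for the new squared distance. -/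
lemma dist_sq_sup_ge (s x : Row d) (U : Submodule ℝ (Row d)) (y : Row d)
    (hy : y ∈ U ⊔ Submodule.span ℝ {x}) :
    ‖s - U.starProjection s‖ ^ 2
        - ⟪s - U.starProjection s, x⟫ ^ 2 / ‖x - U.starProjection x‖ ^ 2 ≤ ‖s - y‖ ^ 2 := by
  obtain ⟨u, hu, z, hz, rfl⟩ := Submodule.mem_sup.1 hy
  obtain ⟨β, rfl⟩ := Submodule.mem_span_singleton.1 hz
  set a := s - U.starProjection s with ha
  set b := x - U.starProjection x with hb
  have hq : U.starProjection s - u - β • U.starProjection x ∈ U :=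
    U.sub_mem (U.sub_mem (U.starProjection_apply_mem s) hu)
      (U.smul_mem β (U.starProjection_apply_mem x))
  have ha0 : ⟪a, U.starProjection s - u - β • U.starProjection x⟫ = 0 :=
    Submodule.starProjection_inner_eq_zero s _ hq
  have hb0 : ⟪b, U.starProjection s - u - β • U.starProjection x⟫ = 0 :=
    Submodule.starProjection_inner_eq_zero x _ hq
  have hax : ⟪a, x⟫ = ⟪a, b⟫ := by
    have h0 : ⟪a, U.starProjection x⟫ = 0 :=
      Submodule.starProjection_inner_eq_zero s _ (U.starProjection_apply_mem x)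
    rw [hb, inner_sub_right, h0, sub_zero]
  have hsplit : s - (u + β • x) = (a - β • b) + (U.starProjection s - u - β • U.starProjection x) := by
    rw [ha, hb, smul_sub]; abel
  have horth : ⟪a - β • b, U.starProjection s - u - β • U.starProjection x⟫ = 0 := by
    rw [inner_sub_left, inner_smul_left, ha0, hb0]; simp
  have hsq : ‖a - β • b‖ ^ 2 ≤ ‖s - (u + β • x)‖ ^ 2 := by
    rw [hsplit, norm_add_sq_real, horth]
    nlinarith [sq_nonneg ‖U.starProjection s - u - β • U.starProjection x‖]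
  have hexp : ‖a - β • b‖ ^ 2 = ‖a‖ ^ 2 - 2 * β * ⟪a, b⟫ + β ^ 2 * ‖b‖ ^ 2 := by
    rw [norm_sub_sq_real, inner_smul_right, norm_smul, mul_pow, Real.norm_eq_abs, sq_abs]; ring
  refine le_trans ?_ hsq
  rw [hexp, hax]
  by_cases hbz : ‖b‖ = 0
  · have hb' : b = 0 := norm_eq_zero.1 hbz
    rw [hb']; simp
  · have hb1 : 0 < ‖b‖ := lt_of_le_of_ne (norm_nonneg _) (Ne.symm hbz)
    obtain ⟨q, hq⟩ : ∃ q : ℝ, ⟪a, b⟫ = q * ‖b‖ := ⟨⟪a, b⟫ / ‖b‖, by field_simp⟩
    rw [hq]
    have e : (q * ‖b‖) ^ 2 / ‖b‖ ^ 2 = q ^ 2 := by field_simp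
    rw [e]
    nlinarith [sq_nonneg (q - β * ‖b‖)]

/-- An orthonormal family of `m` vectors orthogonal to a subspace of small dimension. -/
lemma exists_orthonormal_in_orthogonal (V : Submodule ℝ (Row d)) (m : ℕ)
    (h : Module.finrank ℝ V + m ≤ d) :
    ∃ e : Fin m → Row d, Orthonormal ℝ e ∧ ∀ i, e i ∈ Vᗮ := by
  have hfin : Module.finrank ℝ V + Module.finrank ℝ Vᗮ = d := by
    have := Submodule.finrank_add_finrank_orthogonal V
    simpa using this
  have hm : m ≤ Module.finrank ℝ Vᗮ := by omega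
  let b := stdOrthonormalBasis ℝ Vᗮ
  refine ⟨fun i => (b (Fin.castLE hm i) : Row d), ?_, fun i => (b (Fin.castLE hm i)).2⟩
  have h1 : Orthonormal ℝ (fun j => (b j : Row d)) := by
    have := (Vᗮ.subtypeₗᵢ.orthonormal_comp_iff (v := b)).2 b.orthonormal
    exact this
  exact h1.comp _ (Fin.castLE_injective hm)

/-- Prepending a unit vector orthogonal to an orthonormal family. -/
lemma orthonormal_cons {m : ℕ} {v : Row d} {e : Fin m → Row d} (hv : ‖v‖ = 1)
    (he : Orthonormal ℝ e) (hve : ∀ i, ⟪v, e i⟫ = 0) :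
    Orthonormal ℝ (Fin.cons v e : Fin (m + 1) → Row d) := by
  rw [orthonormal_iff_ite]
  have he' := orthonormal_iff_ite.1 he
  intro i j
  refine Fin.cases ?_ (fun i' => ?_) i <;> refine Fin.cases ?_ (fun j' => ?_) j
  · simp [hv]
  · simp [hve j', Fin.succ_ne_zero, eq_comm]
  · simp [real_inner_comm, hve i', Fin.succ_ne_zero]
  · simp [he' i' j']

/-- The pointwise bound behind the one-step estimate. -/
lemma inv_infDist_sup_le {m : ℕ} (s : Row d) (U : Submodule ℝ (Row d))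
    (ha : s - U.starProjection s ≠ 0) (e : Fin m → Row d) (he : Orthonormal ℝ e)
    (hev : ∀ i, e i ∈ (U ⊔ Submodule.span ℝ {s - U.starProjection s})ᗮ) (x : Row d) :
    (ENNReal.ofReal (Metric.infDist s
        ((U ⊔ Submodule.span ℝ {x} : Submodule ℝ (Row d)) : Set (Row d)) ^ 2))⁻¹
      ≤ (ENNReal.ofReal (‖s - U.starProjection s‖ ^ 2))⁻¹ *
          (1 + ENNReal.ofReal
              (⟪‖s - U.starProjection s‖⁻¹ • (s - U.starProjection s), x⟫ ^ 2)
            / ENNReal.ofReal (∑ i : Fin m, ⟪e i, x⟫ ^ 2)) := by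
  set a := s - U.starProjection s with ha_def
  set r := ‖a‖ with hr_def
  have hr : 0 < r := norm_pos_iff.2 ha
  set v := r⁻¹ • a with hv_def
  set g := ⟪v, x⟫ with hg_def
  set b := x - U.starProjection x with hb_def
  set c := b - g • v with hc_def
  have hvnorm : ‖v‖ = 1 := by
    rw [hv_def, norm_smul, norm_inv, norm_norm, ← hr_def, inv_mul_cancel₀ hr.ne']
  have haU : ∀ u ∈ U, ⟪a, u⟫ = 0 := fun u hu => Submodule.starProjection_inner_eq_zero s u hu
  have hvU : ∀ u ∈ U, ⟪v, u⟫ = 0 := by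
    intro u hu
    rw [hv_def, inner_smul_left, haU u hu]; simp
  have hgb : ⟪v, b⟫ = g := by
    rw [hb_def, inner_sub_right, hvU _ (U.starProjection_apply_mem x), sub_zero]
  have hax : ⟪a, x⟫ = r * g := by
    have : a = r • v := by rw [hv_def, smul_smul, mul_inv_cancel₀ hr.ne', one_smul]
    rw [hg_def]
    conv_lhs => rw [this]
    rw [inner_smul_left]; simp
  have hvv : ⟪v, v⟫ = 1 := by rw [real_inner_self_eq_norm_sq, hvnorm]; norm_num
  have hvc : ⟪v, c⟫ = 0 := by
    rw [hc_def, inner_sub_right, hgb, inner_smul_right, hvv]; ring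
  have hbsq : ‖b‖ ^ 2 = g ^ 2 + ‖c‖ ^ 2 := by
    have hb' : b = g • v + c := by rw [hc_def]; abel
    rw [hb', norm_add_sq_real, inner_smul_left, hvc, norm_smul, hvnorm]
    simp
  have hec : ∀ i, ⟪e i, c⟫ = ⟪e i, x⟫ := by
    intro i
    have h1 := (Submodule.mem_orthogonal' _ _).1 (hev i)
    have h2 : ⟪e i, U.starProjection x⟫ = 0 :=
      h1 _ (Submodule.mem_sup_left (U.starProjection_apply_mem x))
    have h3 : ⟪e i, a⟫ = 0 :=
      h1 _ (Submodule.mem_sup_right (Submodule.mem_span_singleton_self a))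
    have h4 : ⟪e i, v⟫ = 0 := by rw [hv_def, inner_smul_right, h3]; simp
    rw [hc_def, hb_def, inner_sub_right, inner_sub_right, inner_smul_right, h2, h4]; ring
  have hR : ∑ i : Fin m, ⟪e i, x⟫ ^ 2 ≤ ‖c‖ ^ 2 := by
    have hB := he.sum_inner_products_le (x := c) (s := Finset.univ)
    simp only [Real.norm_eq_abs, sq_abs] at hB
    simp_rw [hec] at hB
    exact hB
  -- the distance to the larger subspace
  set U' : Submodule ℝ (Row d) := U ⊔ Submodule.span ℝ {x} with hU'
  have hDx : Metric.infDist s (U' : Set (Row d)) = ‖s - U'.starProjection s‖ :=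
    infDist_eq_norm_sub_proj s U'
  have hL : r ^ 2 - (r * g) ^ 2 / ‖b‖ ^ 2 ≤ Metric.infDist s (U' : Set (Row d)) ^ 2 := by
    rw [hDx]
    have := dist_sq_sup_ge s x U (U'.starProjection s) (U'.starProjection_apply_mem s)
    rw [← ha_def, hax, ← hb_def] at this
    exact this
  have hrinv : (ENNReal.ofReal (r ^ 2))⁻¹ ≠ 0 := ENNReal.inv_ne_zero.2 ENNReal.ofReal_ne_top
  by_cases hg0 : g = 0
  · have h1 : r ^ 2 ≤ Metric.infDist s (U' : Set (Row d)) ^ 2 := by
      rw [hg0] at hL; simpa using hL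
    calc (ENNReal.ofReal (Metric.infDist s (U' : Set (Row d)) ^ 2))⁻¹
        ≤ (ENNReal.ofReal (r ^ 2))⁻¹ := ENNReal.inv_le_inv.2 (ENNReal.ofReal_le_ofReal h1)
      _ = (ENNReal.ofReal (r ^ 2))⁻¹ * 1 := (mul_one _).symm
      _ ≤ _ := by gcongr; exact le_self_add
  · by_cases hR0 : ∑ i : Fin m, ⟪e i, x⟫ ^ 2 ≤ 0
    · have h1 : ENNReal.ofReal (∑ i : Fin m, ⟪e i, x⟫ ^ 2) = 0 := ENNReal.ofReal_eq_zero.2 hR0
      have h2 : ENNReal.ofReal (g ^ 2) ≠ 0 := by
        simp only [ne_eq, ENNReal.ofReal_eq_zero, not_le]; positivity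
      rw [h1, ENNReal.div_zero h2, add_top, ENNReal.mul_top hrinv]
      exact le_top
    · rw [not_le] at hR0
      have hc2 : 0 < ‖c‖ ^ 2 := lt_of_lt_of_le hR0 hR
      have hb2 : 0 < ‖b‖ ^ 2 := by rw [hbsq]; positivity
      have hLeq : r ^ 2 - (r * g) ^ 2 / ‖b‖ ^ 2 = r ^ 2 * ‖c‖ ^ 2 / ‖b‖ ^ 2 := by
        rw [hbsq]; field_simp; ring
      rw [hLeq] at hL
      have hpos : 0 < r ^ 2 * ‖c‖ ^ 2 / ‖b‖ ^ 2 := by positivity
      have hreal : (r ^ 2 * ‖c‖ ^ 2 / ‖b‖ ^ 2)⁻¹
          ≤ (r ^ 2)⁻¹ * (1 + g ^ 2 / ∑ i : Fin m, ⟪e i, x⟫ ^ 2) := by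
        have hcne : ‖c‖ ^ 2 ≠ 0 := hc2.ne'
        have hrne : r ^ 2 ≠ 0 := by positivity
        have hbne : g ^ 2 + ‖c‖ ^ 2 ≠ 0 := by positivity
        have h1 : (r ^ 2 * ‖c‖ ^ 2 / ‖b‖ ^ 2)⁻¹ = (r ^ 2)⁻¹ * (1 + g ^ 2 / ‖c‖ ^ 2) := by
          rw [hbsq, inv_div, add_div' _ _ _ hcne, one_mul, add_comm (‖c‖ ^ 2) (g ^ 2)]
          field_simp
        rw [h1]
        have h2 : g ^ 2 / ‖c‖ ^ 2 ≤ g ^ 2 / ∑ i : Fin m, ⟪e i, x⟫ ^ 2 :=
          div_le_div_of_nonneg_left (sq_nonneg g) hR0 hR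
        have h3 : 0 ≤ (r ^ 2)⁻¹ := by positivity
        nlinarith
      calc (ENNReal.ofReal (Metric.infDist s (U' : Set (Row d)) ^ 2))⁻¹
          ≤ (ENNReal.ofReal (r ^ 2 * ‖c‖ ^ 2 / ‖b‖ ^ 2))⁻¹ :=
            ENNReal.inv_le_inv.2 (ENNReal.ofReal_le_ofReal hL)
        _ = ENNReal.ofReal ((r ^ 2 * ‖c‖ ^ 2 / ‖b‖ ^ 2)⁻¹) := (ENNReal.ofReal_inv_of_pos hpos).symm
        _ ≤ ENNReal.ofReal ((r ^ 2)⁻¹ * (1 + g ^ 2 / ∑ i : Fin m, ⟪e i, x⟫ ^ 2)) :=
            ENNReal.ofReal_le_ofReal hreal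
        _ = _ := by
            rw [ENNReal.ofReal_mul (by positivity), ENNReal.ofReal_inv_of_pos (by positivity),
              ENNReal.ofReal_add zero_le_one (by positivity), ENNReal.ofReal_one,
              ENNReal.ofReal_div_of_pos hR0]

/-- One more Gaussian direction: the mean of the inverse squared distance to the enlarged subspace
is at most `1 + 1/(d-k-3)` times the inverse squared distance to the old one. -/
theorem lintegral_inv_infDist_sup_le {k : ℕ} (hd : k + 4 ≤ d) (s : Row d)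
    (U : Submodule ℝ (Row d)) (hU : Module.finrank ℝ U ≤ k) :
    ∫⁻ x, (ENNReal.ofReal (Metric.infDist s
        ((U ⊔ Submodule.span ℝ {x} : Submodule ℝ (Row d)) : Set (Row d)) ^ 2))⁻¹
        ∂(stdGaussian (Row d))
      ≤ ENNReal.ofReal (1 + 1 / ((d : ℝ) - k - 3)) *
          (ENNReal.ofReal (Metric.infDist s (U : Set (Row d)) ^ 2))⁻¹ := by
  have hdR : ((k : ℝ) + 4) ≤ d := by exact_mod_cast hd
  have hρ : 0 < 1 + 1 / ((d : ℝ) - k - 3) := by
    have : 0 < (d : ℝ) - k - 3 := by linarith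
    positivity
  rw [infDist_eq_norm_sub_proj s U]
  by_cases ha : s - U.starProjection s = 0
  · rw [ha, norm_zero]
    have h0 : ENNReal.ofReal ((0 : ℝ) ^ 2) = 0 := by simp
    rw [h0, ENNReal.inv_zero, ENNReal.mul_top]
    · exact le_top
    · simp only [ne_eq, ENNReal.ofReal_eq_zero, not_le]; exact hρ
  · set a := s - U.starProjection s with ha_def
    set r := ‖a‖ with hr_def
    have hr : 0 < r := norm_pos_iff.2 ha
    set v := r⁻¹ • a with hv_def
    have hvnorm : ‖v‖ = 1 := by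
      rw [hv_def, norm_smul, norm_inv, norm_norm, ← hr_def, inv_mul_cancel₀ hr.ne']
    set m := d - k - 1 with hm_def
    have hm3 : 3 ≤ m := by omega
    have hfin : Module.finrank ℝ (U ⊔ Submodule.span ℝ {a} : Submodule ℝ (Row d)) + m ≤ d := by
      have h1 := Submodule.finrank_add_le_finrank_add_finrank U (Submodule.span ℝ {a})
      have h2 : Module.finrank ℝ (Submodule.span ℝ {a}) = 1 := finrank_span_singleton ha
      omega
    obtain ⟨e, he, hev⟩ := exists_orthonormal_in_orthogonal _ m hfin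
    have hve : ∀ i, ⟪v, e i⟫ = 0 := by
      intro i
      have h1 := (Submodule.mem_orthogonal _ _).1 (hev i)
      have h3 : ⟪a, e i⟫ = 0 :=
        h1 _ (Submodule.mem_sup_right (Submodule.mem_span_singleton_self a))
      rw [hv_def, inner_smul_left, h3]; simp
    have hw := orthonormal_cons hvnorm he hve
    have hG := gauss_ratio_le hm3 (Fin.cons v e : Fin (m + 1) → Row d) hw
    simp only [Fin.cons_zero, Fin.cons_succ] at hG
    have hmeas : Measurable (fun x : Row d =>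
        1 + ENNReal.ofReal (⟪v, x⟫ ^ 2) / ENNReal.ofReal (∑ i : Fin m, ⟪e i, x⟫ ^ 2)) := by
      have h1 : Measurable (fun x : Row d => ENNReal.ofReal (⟪v, x⟫ ^ 2)) := by fun_prop
      have h2 : Measurable (fun x : Row d => ENNReal.ofReal (∑ i : Fin m, ⟪e i, x⟫ ^ 2)) := by
        fun_prop
      exact measurable_const.add (h1.div h2)
    have hmeas2 : Measurable (fun x : Row d =>
        ENNReal.ofReal (⟪v, x⟫ ^ 2) / ENNReal.ofReal (∑ i : Fin m, ⟪e i, x⟫ ^ 2)) := by
      have h1 : Measurable (fun x : Row d => ENNReal.ofReal (⟪v, x⟫ ^ 2)) := by fun_prop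
      have h2 : Measurable (fun x : Row d => ENNReal.ofReal (∑ i : Fin m, ⟪e i, x⟫ ^ 2)) := by
        fun_prop
      exact h1.div h2
    have hmR : (m : ℝ) - 2 = (d : ℝ) - k - 3 := by
      have : (m : ℝ) = (d : ℝ) - k - 1 := by
        rw [hm_def, Nat.cast_sub (by omega), Nat.cast_sub (by omega)]; simp
      rw [this]; ring
    calc ∫⁻ x, (ENNReal.ofReal (Metric.infDist s
            ((U ⊔ Submodule.span ℝ {x} : Submodule ℝ (Row d)) : Set (Row d)) ^ 2))⁻¹
            ∂(stdGaussian (Row d))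
        ≤ ∫⁻ x, (ENNReal.ofReal (r ^ 2))⁻¹ *
            (1 + ENNReal.ofReal (⟪v, x⟫ ^ 2) / ENNReal.ofReal (∑ i : Fin m, ⟪e i, x⟫ ^ 2))
            ∂(stdGaussian (Row d)) :=
          lintegral_mono (fun x => inv_infDist_sup_le s U ha e he hev x)
      _ = (ENNReal.ofReal (r ^ 2))⁻¹ *
            (1 + ∫⁻ x, ENNReal.ofReal (⟪v, x⟫ ^ 2) / ENNReal.ofReal (∑ i : Fin m, ⟪e i, x⟫ ^ 2)
              ∂(stdGaussian (Row d))) := by
          rw [lintegral_const_mul _ hmeas, lintegral_add_left measurable_const, lintegral_const,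
            measure_univ, mul_one]
      _ ≤ (ENNReal.ofReal (r ^ 2))⁻¹ * (1 + ENNReal.ofReal (1 / ((m : ℝ) - 2))) := by
          gcongr
      _ = ENNReal.ofReal (1 + 1 / ((d : ℝ) - k - 3)) * (ENNReal.ofReal (r ^ 2))⁻¹ := by
          rw [mul_comm, hmR, ENNReal.ofReal_add zero_le_one (by
            have : 0 < (d : ℝ) - k - 3 := by linarith
            positivity), ENNReal.ofReal_one]

end Vale.Agent.H83.Stream
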