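import Vale.Agent.H83.Stream.Model

/-!
# Measurability of the distance from a point to the span of finitely many vectors
-/

namespace Vale.Agent.H83.Stream

open MeasureTheory

/-- The linear combination of the vectors `W i` with coefficients `c i`. -/
theorem linM_continuous_comb {d k : ℕ} (W : Fin k → Row d) :
    Continuous (fun c : Fin k → ℝ => ∑ i, c i • W i) := by
  fun_prop

/-- The distance to the span is the infimum of the distances to the rational combinations. -/
theorem linM_infDist_eq {d k : ℕ} (s : Row d) (W : Fin k → Row d) :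
    Metric.infDist s (Submodule.span ℝ (Set.range W) : Set (Row d)) =
      ⨅ c : Fin k → ℚ, ‖s - ∑ i, (c i : ℝ) • W i‖ := by
  set S : Set (Row d) := (Submodule.span ℝ (Set.range W) : Set (Row d)) with hS
  set Φ : (Fin k → ℚ) → Row d := fun c => ∑ i, (c i : ℝ) • W i with hΦ
  set A : Set (Row d) := Set.range Φ with hA
  have hAne : A.Nonempty := Set.range_nonempty Φ
  have hSne : S.Nonempty := ⟨0, Submodule.zero_mem _⟩
  have hAS : A ⊆ S := by
    rintro _ ⟨c, rfl⟩
    exact Submodule.sum_mem _ fun i _ =>
      Submodule.smul_mem _ _ (Submodule.subset_span (Set.mem_range_self i))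
  have hdense : DenseRange (fun c : Fin k → ℚ => fun i => ((c i : ℚ) : ℝ)) :=
    DenseRange.piMap (fun _ : Fin k => Rat.denseRange_cast (𝕜 := ℝ))
  have hSA : S ⊆ closure A := by
    intro y hy
    obtain ⟨c, rfl⟩ := (Submodule.mem_span_range_iff_exists_fun ℝ).mp hy
    have h1 := (linM_continuous_comb W).range_subset_closure_image_dense hdense
    have h2 : (fun c : Fin k → ℝ => ∑ i, c i • W i) ''
        Set.range (fun c : Fin k → ℚ => fun i => ((c i : ℚ) : ℝ)) = A := by
      rw [← Set.range_comp]
      rfl
    rw [h2] at h1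
    exact h1 ⟨c, rfl⟩
  have h1 : Metric.infDist s S = Metric.infDist s A := by
    apply le_antisymm
    · exact Metric.infDist_le_infDist_of_subset hAS hAne
    · rw [← Metric.infDist_closure (s := A)]
      exact Metric.infDist_le_infDist_of_subset hSA hSne
  rw [h1]
  apply le_antisymm
  · apply le_ciInf
    intro c
    rw [← dist_eq_norm]
    exact Metric.infDist_le_dist_of_mem ⟨c, rfl⟩
  · rw [Metric.infDist_eq_iInf]
    have : Nonempty A := hAne.to_subtype
    apply le_ciInf
    rintro ⟨_, c, rfl⟩
    rw [dist_eq_norm]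
    exact ciInf_le ⟨0, by rintro _ ⟨c', rfl⟩; exact norm_nonneg _⟩ c

/-- Board row M. -/
theorem measurable_infDist_span {d k : ℕ} :
    Measurable (fun p : Row d × (Fin k → Row d) =>
      Metric.infDist p.1 (Submodule.span ℝ (Set.range p.2) : Set (Row d))) := by
  have h : (fun p : Row d × (Fin k → Row d) =>
      Metric.infDist p.1 (Submodule.span ℝ (Set.range p.2) : Set (Row d))) =
      fun p => ⨅ c : Fin k → ℚ, ‖p.1 - ∑ i, (c i : ℝ) • p.2 i‖ := by
    funext p
    exact linM_infDist_eq p.1 p.2
  rw [h]
  apply Measurable.iInf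
  intro c
  apply Continuous.measurable
  fun_prop

end Vale.Agent.H83.Stream
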