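import Vale.Agent.H83.Stream.Model

/-!
# Linear-memory learners for noiseless Gaussian linear regression

Definitions only. A linear-memory learner keeps `k` real vectors of `ℝ^d` (exact real arithmetic)
and an arbitrary side memory. After each sample `(x, ⟪x, s⟫)` every new stored vector must be a
linear combination of the old stored vectors and the current row `x`; the coefficients and the new
side memory are arbitrary measurable randomized functions of the whole current state, the index and
the current pair. The output is a vector in the span of the final stored vectors.
-/

namespace Vale.Agent.H83.Stream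

open MeasureTheory ProbabilityTheory

/-- A linear-memory learner with `k` stored vectors and horizon `T` in dimension `d`.

* `Ω` with the probability law `coins` carries all of the learner's randomness.
* The state is a pair `(W, a)`: the `k` stored vectors `W : Fin k → ℝ^d` and a side memory `a : A`
  of an arbitrary measurable type `A` (no bound on its size).
* The stored vectors start at zero; the side memory starts at `init ω`.
* `step t (W, a) (x, y) ω` is the new state after the sample `(x, y)` at index `t`; by `step_mem`
  every new stored vector lies in the span of the old stored vectors and the row `x`.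
* `out (W, a) ω` is the output vector; by `out_mem` it lies in the span of the stored vectors. -/
structure LinLearner (d k T : ℕ) where
  Ω : Type
  [mΩ : MeasurableSpace Ω]
  coins : Measure Ω
  [prob : IsProbabilityMeasure coins]
  A : Type
  [mA : MeasurableSpace A]
  init : Ω → A
  init_meas : Measurable init
  step : Fin T → (Fin k → Row d) × A → Row d × ℝ → Ω → (Fin k → Row d) × A
  step_meas : ∀ t, Measurable
    (fun q : (((Fin k → Row d) × A) × (Row d × ℝ)) × Ω => step t q.1.1 q.1.2 q.2)
  step_mem : ∀ t m p ω i,
    (step t m p ω).1 i ∈ Submodule.span ℝ (Set.range m.1) ⊔ Submodule.span ℝ {p.1}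
  out : (Fin k → Row d) × A → Ω → Row d
  out_meas : Measurable (fun q : ((Fin k → Row d) × A) × Ω => out q.1 q.2)
  out_mem : ∀ m ω, out m ω ∈ Submodule.span ℝ (Set.range m.1)

attribute [instance] LinLearner.mΩ LinLearner.prob LinLearner.mA

variable {d k T : ℕ}

/-- The state of the learner after the first `t` samples of the stream `x`, when the signal is `s`
and the label of the row `x i` is `⟪x i, s⟫`. -/
noncomputable def LinLearner.run (L : LinLearner d k T) (s : Sph d) (x : Fin T → Row d)
    (ω : L.Ω) : ℕ → (Fin k → Row d) × L.A
  | 0 => (fun _ => 0, L.init ω)
  | t + 1 =>
    if h : t < T then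
      L.step ⟨t, h⟩ (L.run s x ω t) (x ⟨t, h⟩, inner ℝ (x ⟨t, h⟩) (s : Row d)) ω
    else L.run s x ω t

/-- The output vector after `T` samples. -/
noncomputable def LinLearner.output (L : LinLearner d k T) (s : Sph d) (x : Fin T → Row d)
    (ω : L.Ω) : Row d :=
  L.out (L.run s x ω T) ω

/-- The probability that the output vector is nonzero and its direction is within angle `ε` of
the signal, when the signal is uniform on the sphere, the `T` rows are independent standard
Gaussian vectors, the learner's randomness has law `coins`, and the three are independent. -/
noncomputable def LinLearner.successProb (L : LinLearner d k T) (ε : ℝ) : ENNReal :=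
  ((unifSphere d).prod
      ((Measure.pi fun _ : Fin T => stdGaussian (Row d)).prod L.coins))
    {p | L.output p.1 p.2.1 p.2.2 ≠ 0 ∧
      Real.arccos (inner ℝ (‖L.output p.1 p.2.1 p.2.2‖⁻¹ • L.output p.1 p.2.1 p.2.2)
        (p.1 : Row d)) ≤ ε}

/-- The learner succeeds at accuracy `ε`: with probability at least `2/3` the direction of its
output is within angle `ε` of the signal. -/
def LinLearner.Succeeds (L : LinLearner d k T) (ε : ℝ) : Prop :=
  (2 / 3 : ENNReal) ≤ L.successProb ε

end Vale.Agent.H83.Stream
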