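import Vale.Agent.H83.Stream.LinGeom
import Vale.Agent.H83.Stream.LinMeas
import Vale.Agent.H83.Stream.LinModel
import Vale.Agent.H83.Stream.KzMain

/-!
# Sample lower bound for linear-memory learners
-/

namespace Vale.Agent.H83.Stream

open MeasureTheory ProbabilityTheory
open scoped ENNReal RealInnerProductSpace

variable {d k T : ℕ}

/-- Integrating out one coordinate of a product of probability measures, inequality version. -/
lemma lintegral_pi_step_le (γ : Measure (Row d)) [IsProbabilityMeasure γ] (i : Fin T)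
    (f g : (Fin T → Row d) → ℝ≥0∞) (hf : Measurable f) (hg : Measurable g)
    (hgc : ∀ x y, g (Function.update x i y) = g x)
    (h : ∀ x, ∫⁻ y, f (Function.update x i y) ∂γ ≤ g x) :
    ∫⁻ x, f x ∂(Measure.pi fun _ : Fin T => γ) ≤ ∫⁻ x, g x ∂(Measure.pi fun _ : Fin T => γ) := by
  have x0 : Fin T → Row d := fun _ => 0
  rw [lintegral_eq_lmarginal_univ x0, lintegral_eq_lmarginal_univ x0,
    lmarginal_erase' f hf (Finset.mem_univ i), lmarginal_erase' g hg (Finset.mem_univ i)]
  have e2 : (fun x => ∫⁻ y, g (Function.update x i y) ∂γ) = g := by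
    funext x
    simp [hgc]
  rw [e2]
  exact lmarginal_mono h x0

/-- The inverse squared distance from `s` to the span of the stored vectors. -/
noncomputable def ipot (s : Row d) (W : Fin k → Row d) : ℝ≥0∞ :=
  (ENNReal.ofReal (Metric.infDist s (Submodule.span ℝ (Set.range W) : Set (Row d)) ^ 2))⁻¹

lemma measurable_ipot :
    Measurable (fun p : Row d × (Fin k → Row d) => ipot p.1 p.2) := by
  unfold ipot
  exact ((measurable_infDist_span (d := d) (k := k)).pow_const 2).ennreal_ofReal.inv

lemma LinLearner.run_congr (L : LinLearner d k T) (s : Sph d) (x x' : Fin T → Row d) (ω : L.Ω)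
    (t : ℕ) (hx : ∀ j : Fin T, (j : ℕ) < t → x j = x' j) : L.run s x ω t = L.run s x' ω t := by
  induction t with
  | zero => rfl
  | succ t ih =>
    rw [LinLearner.run, LinLearner.run]
    by_cases ht : t < T
    · rw [dif_pos ht, dif_pos ht, ih (fun j hj => hx j (by omega)), hx ⟨t, ht⟩ (by simp)]
    · rw [dif_neg ht, dif_neg ht]
      exact ih (fun j hj => hx j (by omega))

lemma LinLearner.measurable_run (L : LinLearner d k T) (t : ℕ) :
    Measurable (fun p : Sph d × ((Fin T → Row d) × L.Ω) => L.run p.1 p.2.1 p.2.2 t) := by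
  induction t with
  | zero =>
    have : (fun p : Sph d × ((Fin T → Row d) × L.Ω) => L.run p.1 p.2.1 p.2.2 0)
        = fun p => ((fun _ => 0 : Fin k → Row d), L.init p.2.2) := by
      ext1 p; rfl
    rw [this]
    exact measurable_const.prodMk (L.init_meas.comp (measurable_snd.comp measurable_snd))
  | succ t ih =>
    by_cases ht : t < T
    · have : (fun p : Sph d × ((Fin T → Row d) × L.Ω) => L.run p.1 p.2.1 p.2.2 (t + 1))
          = fun p => L.step ⟨t, ht⟩ (L.run p.1 p.2.1 p.2.2 t)
              (p.2.1 ⟨t, ht⟩, ⟪p.2.1 ⟨t, ht⟩, (p.1 : Row d)⟫) p.2.2 := by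
        ext1 p; rw [LinLearner.run, dif_pos ht]
      rw [this]
      have hx : Measurable (fun p : Sph d × ((Fin T → Row d) × L.Ω) => p.2.1 ⟨t, ht⟩) :=
        (measurable_pi_apply _).comp (measurable_fst.comp measurable_snd)
      have hs : Measurable (fun p : Sph d × ((Fin T → Row d) × L.Ω) => (p.1 : Row d)) :=
        measurable_subtype_coe.comp measurable_fst
      have hy : Measurable (fun p : Sph d × ((Fin T → Row d) × L.Ω) =>
          ⟪p.2.1 ⟨t, ht⟩, (p.1 : Row d)⟫) := hx.inner hs
      have hω : Measurable (fun p : Sph d × ((Fin T → Row d) × L.Ω) => p.2.2) :=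
        measurable_snd.comp measurable_snd
      exact (L.step_meas ⟨t, ht⟩).comp ((ih.prodMk (hx.prodMk hy)).prodMk hω)
    · have : (fun p : Sph d × ((Fin T → Row d) × L.Ω) => L.run p.1 p.2.1 p.2.2 (t + 1))
          = fun p => L.run p.1 p.2.1 p.2.2 t := by
        ext1 p; rw [LinLearner.run, dif_neg ht]
      rw [this]; exact ih

/-- The potential after `t` samples, as a function of all the randomness. -/
noncomputable def LinLearner.pot (L : LinLearner d k T) (t : ℕ)
    (p : Sph d × ((Fin T → Row d) × L.Ω)) : ℝ≥0∞ :=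
  ipot (p.1 : Row d) (L.run p.1 p.2.1 p.2.2 t).1

lemma LinLearner.measurable_pot (L : LinLearner d k T) (t : ℕ) : Measurable (L.pot t) := by
  have hr := L.measurable_run t
  have h0 : Measurable (fun p : Sph d × ((Fin T → Row d) × L.Ω) => (p.1 : Row d)) :=
    measurable_subtype_coe.comp measurable_fst
  have h2 : Measurable (fun p : Sph d × ((Fin T → Row d) × L.Ω) =>
      (L.run p.1 p.2.1 p.2.2 t).1) := hr.fst
  have h1 : Measurable (fun p : Sph d × ((Fin T → Row d) × L.Ω) =>
      (((p.1 : Row d), (L.run p.1 p.2.1 p.2.2 t).1) : Row d × (Fin k → Row d))) :=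
    h0.prodMk h2
  exact Measurable.comp (g := fun q : Row d × (Fin k → Row d) => ipot q.1 q.2)
    (f := fun p : Sph d × ((Fin T → Row d) × L.Ω) =>
      (((p.1 : Row d), (L.run p.1 p.2.1 p.2.2 t).1) : Row d × (Fin k → Row d)))
    measurable_ipot h1

lemma LinLearner.measurable_pot_right (L : LinLearner d k T) (t : ℕ) (s : Sph d) (ω : L.Ω) :
    Measurable (fun x : Fin T → Row d => L.pot t (s, (x, ω))) := by
  have h1 : Measurable (fun x : Fin T → Row d =>
      ((s, (x, ω)) : Sph d × ((Fin T → Row d) × L.Ω))) :=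
    measurable_const.prodMk (measurable_id.prodMk measurable_const)
  exact Measurable.comp (g := L.pot t)
    (f := fun x : Fin T → Row d => ((s, (x, ω)) : Sph d × ((Fin T → Row d) × L.Ω)))
    (L.measurable_pot t) h1

lemma ipot_mono (s : Row d) {U U' : Submodule ℝ (Row d)} (h : U ≤ U') :
    (ENNReal.ofReal (Metric.infDist s (U : Set (Row d)) ^ 2))⁻¹
      ≤ (ENNReal.ofReal (Metric.infDist s (U' : Set (Row d)) ^ 2))⁻¹ := by
  apply ENNReal.inv_le_inv.2
  apply ENNReal.ofReal_le_ofReal
  have h1 : Metric.infDist s (U' : Set (Row d)) ≤ Metric.infDist s (U : Set (Row d)) :=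
    Metric.infDist_le_infDist_of_subset (fun y hy => h hy) ⟨0, U.zero_mem⟩
  exact pow_le_pow_left₀ Metric.infDist_nonneg h1 2

/-- One sample multiplies the mean potential by at most `1 + 1/(d-k-3)`. -/
lemma LinLearner.lintegral_pot_succ (L : LinLearner d k T) (hd : k + 4 ≤ d) (s : Sph d) (ω : L.Ω)
    {t : ℕ} (ht : t < T) :
    ∫⁻ x, L.pot (t + 1) (s, (x, ω)) ∂(Measure.pi fun _ : Fin T => stdGaussian (Row d))
      ≤ ENNReal.ofReal (1 + 1 / ((d : ℝ) - k - 3)) *
          ∫⁻ x, L.pot t (s, (x, ω)) ∂(Measure.pi fun _ : Fin T => stdGaussian (Row d)) := by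
  rw [← lintegral_const_mul _ (L.measurable_pot_right t s ω)]
  refine lintegral_pi_step_le (stdGaussian (Row d)) ⟨t, ht⟩ _ _ (L.measurable_pot_right (t + 1) s ω)
    ((L.measurable_pot_right t s ω).const_mul _) ?_ ?_
  · intro x y
    have hrun : L.run s (Function.update x ⟨t, ht⟩ y) ω t = L.run s x ω t := by
      apply L.run_congr
      intro j hj
      rw [Function.update_of_ne]
      intro hji
      rw [hji] at hj
      simp at hj
    unfold LinLearner.pot
    simp only
    rw [hrun]
  · intro x
    have hrun : ∀ y, L.run s (Function.update x ⟨t, ht⟩ y) ω t = L.run s x ω t := by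
      intro y
      apply L.run_congr
      intro j hj
      rw [Function.update_of_ne]
      intro hji
      rw [hji] at hj
      simp at hj
    set m := L.run s x ω t with hm
    set U : Submodule ℝ (Row d) := Submodule.span ℝ (Set.range m.1) with hU
    have hUk : Module.finrank ℝ U ≤ k := by
      have := finrank_range_le_card (R := ℝ) m.1
      simpa [Set.finrank] using this
    have hpt : ∀ y, L.pot (t + 1) (s, (Function.update x ⟨t, ht⟩ y, ω))
        ≤ (ENNReal.ofReal (Metric.infDist (s : Row d)
            ((U ⊔ Submodule.span ℝ {y} : Submodule ℝ (Row d)) : Set (Row d)) ^ 2))⁻¹ := by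
      intro y
      unfold LinLearner.pot ipot
      simp only
      rw [LinLearner.run, dif_pos ht, hrun y, Function.update_self]
      apply ipot_mono
      rw [Submodule.span_le]
      rintro _ ⟨i, rfl⟩
      exact L.step_mem ⟨t, ht⟩ m (y, ⟪y, (s : Row d)⟫) ω i
    refine (lintegral_mono hpt).trans ?_
    have := lintegral_inv_infDist_sup_le hd (s : Row d) U hUk
    unfold LinLearner.pot ipot
    exact this

lemma LinLearner.lintegral_pot_le (L : LinLearner d k T) (hd : k + 4 ≤ d) (s : Sph d) (ω : L.Ω)
    (t : ℕ) (ht : t ≤ T) :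
    ∫⁻ x, L.pot t (s, (x, ω)) ∂(Measure.pi fun _ : Fin T => stdGaussian (Row d))
      ≤ ENNReal.ofReal (1 + 1 / ((d : ℝ) - k - 3)) ^ t := by
  induction t with
  | zero =>
    have h0 : ∀ x : Fin T → Row d, L.pot 0 (s, (x, ω)) = 1 := by
      intro x
      unfold LinLearner.pot ipot
      have hrun : (L.run s x ω 0).1 = fun _ => 0 := rfl
      simp only
      rw [hrun]
      have hspan : Submodule.span ℝ (Set.range (fun _ : Fin k => (0 : Row d))) = ⊥ := by
        rw [Submodule.span_eq_bot]
        rintro _ ⟨i, rfl⟩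
        rfl
      rw [hspan, Submodule.bot_coe, Metric.infDist_singleton, dist_zero_right]
      have hs : ‖(s : Row d)‖ = 1 := by simp
      rw [hs]; simp
    simp_rw [h0]
    simp
  | succ t ih =>
    have ht' : t < T := by omega
    refine (L.lintegral_pot_succ hd s ω ht').trans ?_
    rw [pow_succ, mul_comm]
    gcongr
    exact ih (by omega)

end Vale.Agent.H83.Stream
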