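import Vale.Agent.H83.Stream.LinModel
import Vale.Agent.H83.Stream.KzMain

/-!
# The exact Kaczmarz iteration as a linear-memory learner
-/

namespace Vale.Agent.H83.Stream

open MeasureTheory ProbabilityTheory
open scoped ENNReal RealInnerProductSpace

variable {d : ℕ}

/-- The exact Kaczmarz estimate after `t` samples. -/
noncomputable def linU_zs {T : ℕ} (s : Row d) (x : Fin T → Row d) : ℕ → Row d
  | 0 => 0
  | t + 1 =>
    if h : t < T then kz (linU_zs s x t) (x ⟨t, h⟩) ⟪x ⟨t, h⟩, s⟫ else linU_zs s x t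

lemma linU_zs_congr {T : ℕ} (s : Row d) (x x' : Fin T → Row d) (t : ℕ)
    (hx : ∀ j : Fin T, (j : ℕ) < t → x j = x' j) : linU_zs s x t = linU_zs s x' t := by
  induction t with
  | zero => rfl
  | succ t ih =>
    rw [linU_zs, linU_zs]
    by_cases ht : t < T
    · rw [dif_pos ht, dif_pos ht, ih (fun j hj => hx j (by omega)), hx ⟨t, ht⟩ (by simp)]
    · rw [dif_neg ht, dif_neg ht]
      exact ih (fun j hj => hx j (by omega))

lemma linU_measurable_zs {T : ℕ} (t : ℕ) :
    Measurable (fun p : Row d × (Fin T → Row d) => linU_zs p.1 p.2 t) := by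
  induction t with
  | zero => exact measurable_const
  | succ t ih =>
    by_cases ht : t < T
    · have : (fun p : Row d × (Fin T → Row d) => linU_zs p.1 p.2 (t + 1))
          = fun p => kz (linU_zs p.1 p.2 t) (p.2 ⟨t, ht⟩) ⟪p.2 ⟨t, ht⟩, p.1⟫ := by
        ext1 p; rw [linU_zs, dif_pos ht]
      rw [this]
      have h1 : Measurable (fun p : Row d × (Fin T → Row d) =>
          (linU_zs p.1 p.2 t, p.2 ⟨t, ht⟩, ⟪p.2 ⟨t, ht⟩, p.1⟫)) := by
        refine ih.prodMk (Measurable.prodMk ?_ ?_)
        · fun_prop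
        · fun_prop
      exact measurable_kz.comp h1
    · have : (fun p : Row d × (Fin T → Row d) => linU_zs p.1 p.2 (t + 1))
          = fun p => linU_zs p.1 p.2 t := by
        ext1 p; rw [linU_zs, dif_neg ht]
      rw [this]; exact ih

/-- The squared error of the exact estimate after `t` samples. -/
noncomputable def linU_pot {T : ℕ} (s : Row d) (x : Fin T → Row d) (t : ℕ) : ℝ :=
  ‖linU_zs s x t - s‖ ^ 2

lemma linU_measurable_pot {T : ℕ} (t : ℕ) :
    Measurable (fun p : Row d × (Fin T → Row d) => linU_pot p.1 p.2 t) := by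
  unfold linU_pot
  exact ((linU_measurable_zs t).sub measurable_fst).norm.pow_const 2

lemma linU_measurable_zs_right {T : ℕ} (s : Row d) (t : ℕ) :
    Measurable (fun x : Fin T → Row d => linU_zs s x t) :=
  Measurable.comp (g := fun p : Row d × (Fin T → Row d) => linU_zs p.1 p.2 t)
    (f := fun x : Fin T → Row d => ((s, x) : Row d × (Fin T → Row d)))
    (linU_measurable_zs t) (measurable_pair_left s)

lemma linU_measurable_pot_right {T : ℕ} (s : Row d) (t : ℕ) :
    Measurable (fun x : Fin T → Row d => linU_pot s x t) :=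
  Measurable.comp (g := fun p : Row d × (Fin T → Row d) => linU_pot p.1 p.2 t)
    (f := fun x : Fin T → Row d => ((s, x) : Row d × (Fin T → Row d)))
    (linU_measurable_pot t) (measurable_pair_left s)

/-- The squared error after the projection at step `t`. -/
noncomputable def linU_rem {T : ℕ} (s : Row d) (t : ℕ) (ht : t < T) (x : Fin T → Row d) : ℝ :=
  linU_pot s x t - cosq (linU_zs s x t - s) (x ⟨t, ht⟩)

lemma linU_measurable_rem {T : ℕ} (s : Row d) (t : ℕ) (ht : t < T) :
    Measurable (linU_rem s t ht) := by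
  unfold linU_rem
  refine (linU_measurable_pot_right s t).sub ?_
  have h1 : Measurable (fun x : Fin T → Row d => (linU_zs s x t - s, x ⟨t, ht⟩)) :=
    ((linU_measurable_zs_right s t).sub_const s).prodMk (measurable_pi_apply _)
  exact Measurable.comp (g := fun q : Row d × Row d => cosq q.1 q.2)
    (f := fun x : Fin T → Row d => (linU_zs s x t - s, x ⟨t, ht⟩)) measurable_cosq2 h1

lemma linU_pot_succ {T : ℕ} (s : Row d) (x : Fin T → Row d) {t : ℕ} (ht : t < T) :
    linU_pot s x (t + 1) = linU_rem s t ht x := by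
  unfold linU_rem linU_pot
  rw [linU_zs, dif_pos ht]
  exact norm_kz_sub_sq _ _ _

lemma linU_rem_update {T : ℕ} (s : Row d) (t : ℕ) (ht : t < T) (x : Fin T → Row d)
    (y : Row d) :
    linU_rem s t ht (Function.update x ⟨t, ht⟩ y)
      = ‖linU_zs s x t - s‖ ^ 2 - cosq (linU_zs s x t - s) y := by
  have hv : linU_zs s (Function.update x ⟨t, ht⟩ y) t = linU_zs s x t := by
    apply linU_zs_congr
    intro j hj
    rw [Function.update_of_ne]
    intro hji
    rw [hji] at hj
    simp at hj
  unfold linU_rem linU_pot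
  rw [hv, Function.update_self]

lemma linU_lintegral_rem {T : ℕ} (hd : 1 ≤ d) (s : Row d) (t : ℕ) (ht : t < T) :
    ∫⁻ x, ENNReal.ofReal (linU_rem s t ht x) ∂(Measure.pi fun _ : Fin T => stdGaussian (Row d))
      = ∫⁻ x, ENNReal.ofReal ((1 - 1 / d) * linU_pot s x t)
          ∂(Measure.pi fun _ : Fin T => stdGaussian (Row d)) := by
  refine lintegral_pi_step (stdGaussian (Row d)) ⟨t, ht⟩ _ _
    (linU_measurable_rem s t ht).ennreal_ofReal
    ((linU_measurable_pot_right s t).const_mul _).ennreal_ofReal ?_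
  intro x
  simp_rw [linU_rem_update]
  rw [lintegral_proj hd]
  rfl

lemma linU_lintegral_pot_le {T : ℕ} (hd : 1 ≤ d) {s : Row d} (hs : ‖s‖ = 1)
    (t : ℕ) (ht : t ≤ T) :
    ∫⁻ x, ENNReal.ofReal (linU_pot s x t) ∂(Measure.pi fun _ : Fin T => stdGaussian (Row d))
      ≤ ENNReal.ofReal ((1 - 1 / (d : ℝ)) ^ t) := by
  have hd1 : (0 : ℝ) ≤ 1 - 1 / d := by
    have h1 : (1 : ℝ) ≤ d := by exact_mod_cast hd
    have h2 : 1 / (d : ℝ) ≤ 1 := by rw [div_le_one (by positivity)]; exact h1
    linarith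
  induction t with
  | zero =>
    have h0 : ∀ x : Fin T → Row d, linU_pot s x 0 = 1 := by
      intro x
      unfold linU_pot
      rw [linU_zs, zero_sub, norm_neg, hs]; norm_num
    simp_rw [h0]
    rw [lintegral_const, measure_univ, mul_one]
    simp
  | succ t ih =>
    have ht' : t < T := by omega
    have ih' := ih (by omega)
    have e1 : ∀ x : Fin T → Row d, ENNReal.ofReal (linU_pot s x (t + 1))
        = ENNReal.ofReal (linU_rem s t ht' x) := fun x => by rw [linU_pot_succ s x ht']
    simp_rw [e1]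
    rw [linU_lintegral_rem hd s t ht']
    have hmul : ∫⁻ x, ENNReal.ofReal ((1 - 1 / d) * linU_pot s x t)
          ∂(Measure.pi fun _ : Fin T => stdGaussian (Row d))
        = ENNReal.ofReal (1 - 1 / d) * ∫⁻ x, ENNReal.ofReal (linU_pot s x t)
          ∂(Measure.pi fun _ : Fin T => stdGaussian (Row d)) := by
      rw [← lintegral_const_mul _ (linU_measurable_pot_right s t).ennreal_ofReal]
      refine lintegral_congr (fun x => ?_)
      rw [ENNReal.ofReal_mul hd1]
    rw [hmul, pow_succ, mul_comm ((1 - 1 / (d : ℝ)) ^ t), ENNReal.ofReal_mul hd1]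
    gcongr

/-- With probability at least `2/3` the squared error after `T` samples is at most `ε²/4`. -/
lemma linU_prob_pot_le {Ω' : Type*} [MeasurableSpace Ω'] (P : Measure Ω') [IsProbabilityMeasure P]
    {T : ℕ} (hd : 1 ≤ d) {ε : ℝ} (hε : 0 < ε)
    (hT : (1 - 1 / (d : ℝ)) ^ T ≤ ε ^ 2 / 12) :
    ENNReal.ofReal (2 / 3) ≤
      ((unifSphere d).prod ((Measure.pi fun _ : Fin T => stdGaussian (Row d)).prod P))
        {p : Sph d × ((Fin T → Row d) × Ω') | linU_pot (p.1 : Row d) p.2.1 T ≤ ε ^ 2 / 4} := by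
  have hprob := isProbabilityMeasure_unifSphere hd
  have hΦm : Measurable (fun p : Sph d × ((Fin T → Row d) × Ω') =>
      linU_pot (p.1 : Row d) p.2.1 T) := by
    have h1 : Measurable (fun p : Sph d × ((Fin T → Row d) × Ω') =>
        (((p.1 : Row d), p.2.1) : Row d × (Fin T → Row d))) :=
      (measurable_subtype_coe.comp measurable_fst).prodMk (measurable_fst.comp measurable_snd)
    exact Measurable.comp (g := fun q : Row d × (Fin T → Row d) => linU_pot q.1 q.2 T)
      (f := fun p : Sph d × ((Fin T → Row d) × Ω') =>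
        (((p.1 : Row d), p.2.1) : Row d × (Fin T → Row d))) (linU_measurable_pot T) h1
  have hexp : ∫⁻ p, ENNReal.ofReal (linU_pot (p.1 : Row d) p.2.1 T)
        ∂((unifSphere d).prod ((Measure.pi fun _ : Fin T => stdGaussian (Row d)).prod P))
      ≤ ENNReal.ofReal (ε ^ 2 / 12) := by
    rw [lintegral_prod _ hΦm.ennreal_ofReal.aemeasurable]
    have hinner : ∀ s : Sph d, ∫⁻ q, ENNReal.ofReal (linU_pot (s : Row d) q.1 T)
          ∂((Measure.pi fun _ : Fin T => stdGaussian (Row d)).prod P)
        ≤ ENNReal.ofReal (ε ^ 2 / 12) := by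
      intro s
      have hm2 : Measurable (fun q : (Fin T → Row d) × Ω' =>
          ENNReal.ofReal (linU_pot (s : Row d) q.1 T)) :=
        (Measurable.comp (g := fun x : Fin T → Row d => linU_pot (s : Row d) x T)
          (f := fun q : (Fin T → Row d) × Ω' => q.1)
          (linU_measurable_pot_right (s : Row d) T) measurable_fst).ennreal_ofReal
      rw [lintegral_prod _ hm2.aemeasurable]
      simp only [lintegral_const, measure_univ, mul_one]
      have hs : ‖(s : Row d)‖ = 1 := by simp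
      refine (linU_lintegral_pot_le hd hs T le_rfl).trans ?_
      exact ENNReal.ofReal_le_ofReal hT
    calc ∫⁻ s, ∫⁻ q, ENNReal.ofReal (linU_pot (s : Row d) q.1 T)
            ∂((Measure.pi fun _ : Fin T => stdGaussian (Row d)).prod P) ∂(unifSphere d)
        ≤ ∫⁻ _s, ENNReal.ofReal (ε ^ 2 / 12) ∂(unifSphere d) := lintegral_mono hinner
      _ = ENNReal.ofReal (ε ^ 2 / 12) := by simp
  have hGm : MeasurableSet {p : Sph d × ((Fin T → Row d) × Ω') |
      linU_pot (p.1 : Row d) p.2.1 T ≤ ε ^ 2 / 4} :=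
    measurableSet_le hΦm measurable_const
  have hsub : {p : Sph d × ((Fin T → Row d) × Ω') | linU_pot (p.1 : Row d) p.2.1 T ≤ ε ^ 2 / 4}ᶜ
      ⊆ {p | ENNReal.ofReal (ε ^ 2 / 4) ≤ ENNReal.ofReal (linU_pot (p.1 : Row d) p.2.1 T)} := by
    intro p hp
    have hp' : ¬ (linU_pot (p.1 : Row d) p.2.1 T ≤ ε ^ 2 / 4) := hp
    exact ENNReal.ofReal_le_ofReal (not_le.1 hp').le
  have hpos : ENNReal.ofReal (ε ^ 2 / 4) ≠ 0 := by
    simp only [ne_eq, ENNReal.ofReal_eq_zero, not_le]; positivity
  have hbad : ((unifSphere d).prod ((Measure.pi fun _ : Fin T => stdGaussian (Row d)).prod P))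
      {p : Sph d × ((Fin T → Row d) × Ω') | linU_pot (p.1 : Row d) p.2.1 T ≤ ε ^ 2 / 4}ᶜ
      ≤ ENNReal.ofReal (1 / 3) := by
    refine (measure_mono hsub).trans ?_
    refine (meas_ge_le_lintegral_div hΦm.ennreal_ofReal.aemeasurable hpos
      ENNReal.ofReal_ne_top).trans ?_
    calc (∫⁻ p, ENNReal.ofReal (linU_pot (p.1 : Row d) p.2.1 T)
          ∂((unifSphere d).prod ((Measure.pi fun _ : Fin T => stdGaussian (Row d)).prod P)))
          / ENNReal.ofReal (ε ^ 2 / 4)
        ≤ ENNReal.ofReal (ε ^ 2 / 12) / ENNReal.ofReal (ε ^ 2 / 4) := by gcongr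
      _ = ENNReal.ofReal (1 / 3) := by
          rw [← ENNReal.ofReal_div_of_pos (by positivity)]
          congr 1
          field_simp
          norm_num
  have h1 : ((unifSphere d).prod ((Measure.pi fun _ : Fin T => stdGaussian (Row d)).prod P))
      {p : Sph d × ((Fin T → Row d) × Ω') | linU_pot (p.1 : Row d) p.2.1 T ≤ ε ^ 2 / 4}
      = 1 - ((unifSphere d).prod ((Measure.pi fun _ : Fin T => stdGaussian (Row d)).prod P))
        {p : Sph d × ((Fin T → Row d) × Ω') | linU_pot (p.1 : Row d) p.2.1 T ≤ ε ^ 2 / 4}ᶜ := by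
    rw [prob_compl_eq_one_sub hGm, ENNReal.sub_sub_cancel ENNReal.one_ne_top prob_le_one]
  rw [h1]
  calc ENNReal.ofReal (2 / 3) = 1 - ENNReal.ofReal (1 / 3) := by
        rw [← ENNReal.ofReal_one, ← ENNReal.ofReal_sub _ (by norm_num)]
        congr 1; norm_num
    _ ≤ _ := tsub_le_tsub_left hbad 1

/-- The exact Kaczmarz iteration in the first slot, as a linear-memory learner. -/
noncomputable def linU_learner (d k T : ℕ) (hk : 1 ≤ k) : LinLearner d k T where
  Ω := Unit
  coins := Measure.dirac ()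
  A := Unit
  init := fun _ => ()
  init_meas := measurable_const
  step := fun _ m p _ =>
    (fun i => if i = (⟨0, hk⟩ : Fin k) then kz (m.1 ⟨0, hk⟩) p.1 p.2 else 0, ())
  step_meas := by
    intro t
    refine Measurable.prodMk ?_ measurable_const
    refine measurable_pi_iff.2 (fun i => ?_)
    by_cases hi : i = (⟨0, hk⟩ : Fin k)
    · simp only [if_pos hi]
      have := (measurable_kz (d := d)).comp
        (f := fun q : (((Fin k → Row d) × Unit) × (Row d × ℝ)) × Unit =>
          (q.1.1.1 ⟨0, hk⟩, q.1.2.1, q.1.2.2)) (by fun_prop)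
      exact this
    · simp only [if_neg hi]
      exact measurable_const
  step_mem := by
    intro t m p ω i
    show (if i = (⟨0, hk⟩ : Fin k) then kz (m.1 ⟨0, hk⟩) p.1 p.2 else 0) ∈ _
    by_cases hi : i = (⟨0, hk⟩ : Fin k)
    · rw [if_pos hi]
      unfold kz
      exact Submodule.add_mem _
        (Submodule.mem_sup_left (Submodule.subset_span (Set.mem_range_self _)))
        (Submodule.mem_sup_right (Submodule.smul_mem _ _ (Submodule.mem_span_singleton_self _)))
    · rw [if_neg hi]
      exact Submodule.zero_mem _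
  out := fun m _ => m.1 ⟨0, hk⟩
  out_meas := (measurable_pi_apply _).comp (measurable_fst.comp measurable_fst)
  out_mem := fun m _ => Submodule.subset_span (Set.mem_range_self _)

lemma linU_run (d k T : ℕ) (hk : 1 ≤ k) (s : Sph d) (x : Fin T → Row d)
    (ω : (linU_learner d k T hk).Ω) (t : ℕ) :
    (linU_learner d k T hk).run s x ω t =
      ((fun i => if i = (⟨0, hk⟩ : Fin k) then linU_zs (s : Row d) x t else 0), ()) := by
  induction t with
  | zero =>
    show (((fun _ => 0) : Fin k → Row d), ()) = _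
    refine Prod.ext ?_ rfl
    funext i
    simp [linU_zs]
  | succ t ih =>
    rw [LinLearner.run, linU_zs]
    by_cases ht : t < T
    · rw [dif_pos ht, dif_pos ht, ih]
      show ((fun i => if i = (⟨0, hk⟩ : Fin k) then
          kz ((fun i => if i = (⟨0, hk⟩ : Fin k) then linU_zs (s : Row d) x t else 0) ⟨0, hk⟩)
            (x ⟨t, ht⟩) ⟪x ⟨t, ht⟩, (s : Row d)⟫ else 0), ()) = _
      simp
    · rw [dif_neg ht, dif_neg ht, ih]

/-- Board row LIN-U. -/
theorem exists_linLearner_succeeds (d k T : ℕ) (hd : 1 ≤ d) (hk : 1 ≤ k) (ε : ℝ) (hε : 0 < ε)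
    (hε1 : ε ≤ 1) (hT : (1 - 1 / (d : ℝ)) ^ T ≤ ε ^ 2 / 12) :
    ∃ L : LinLearner d k T, L.Succeeds ε := by
  refine ⟨linU_learner d k T hk, ?_⟩
  unfold LinLearner.Succeeds LinLearner.successProb
  have h23 : (2 / 3 : ℝ≥0∞) = ENNReal.ofReal (2 / 3) := by
    rw [ENNReal.ofReal_div_of_pos (by norm_num)]; simp
  rw [h23]
  refine (linU_prob_pot_le (linU_learner d k T hk).coins hd hε hT).trans (measure_mono ?_)
  intro p hp
  change linU_pot (p.1 : Row d) p.2.1 T ≤ ε ^ 2 / 4 at hp
  have hs : ‖(p.1 : Row d)‖ = 1 := by simp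
  have hout : (linU_learner d k T hk).output p.1 p.2.1 p.2.2 = linU_zs (p.1 : Row d) p.2.1 T := by
    unfold LinLearner.output
    rw [linU_run]
    show (fun i => if i = (⟨0, hk⟩ : Fin k) then linU_zs (p.1 : Row d) p.2.1 T else 0) ⟨0, hk⟩ = _
    simp
  show (linU_learner d k T hk).output p.1 p.2.1 p.2.2 ≠ 0 ∧
    Real.arccos (inner ℝ (‖(linU_learner d k T hk).output p.1 p.2.1 p.2.2‖⁻¹ •
      (linU_learner d k T hk).output p.1 p.2.1 p.2.2) (p.1 : Row d)) ≤ ε
  rw [hout]
  exact arccos_le_of_close hs hε hε1 hp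

end Vale.Agent.H83.Stream
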