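import Mathlib

/-!
# Memory-bounded streaming learners for noiseless Gaussian linear regression

Definitions only: the unit sphere, the uniform law on it, the standard Gaussian rows, learners with
`M` bits and horizon `T`, and the probability of success at accuracy `ε`.
-/

namespace Vale.Agent.H83.Stream

open MeasureTheory ProbabilityTheory

/-- Rows live in `d`-dimensional Euclidean space. -/
abbrev Row (d : ℕ) : Type := EuclideanSpace ℝ (Fin d)

/-- The unit sphere `S^{d-1}` of `ℝ^d`. -/
abbrev Sph (d : ℕ) : Type := Metric.sphere (0 : Row d) 1

/-- The uniform probability law on the unit sphere: the surface measure induced by Lebesgue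
measure, divided by its total mass. -/
noncomputable def unifSphere (d : ℕ) : Measure (Sph d) :=
  ((volume : Measure (Row d)).toSphere Set.univ)⁻¹ • (volume : Measure (Row d)).toSphere

/-- A learner with `M` bits and horizon `T` in dimension `d`.

* The persistent state is an element of `Fin (2 ^ M)`.
* `Ω` with the probability law `coins` carries all of the learner's randomness; it is independent
  of the signal and of the rows, and every rule may read it.
* `init` is the initial state.
* `step t w (x, y) ω` is the transition at index `t` from state `w` on the pair `(x, y)`: it
  returns the new state together with the decision to stop (`true` = stop after this sample).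
* `out w ω` is the output computed from the final state `w`. -/
structure Learner (d M T : ℕ) where
  Ω : Type
  [mΩ : MeasurableSpace Ω]
  coins : Measure Ω
  [prob : IsProbabilityMeasure coins]
  init : Ω → Fin (2 ^ M)
  init_meas : Measurable init
  step : Fin T → Fin (2 ^ M) → Row d × ℝ → Ω → Fin (2 ^ M) × Bool
  step_meas : ∀ t w, Measurable (fun p : (Row d × ℝ) × Ω => step t w p.1 p.2)
  out : Fin (2 ^ M) → Ω → Sph d
  out_meas : ∀ w, Measurable (out w)

attribute [instance] Learner.mΩ Learner.prob

variable {d M T : ℕ}

/-- The state of the learner, with the flag has-stopped, after the first `t` samples of the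
stream `x`, when the signal is `s` and the label of the row `x i` is `⟪x i, s⟫`. Once the flag is
set, no further sample is read and the state is frozen. -/
noncomputable def Learner.run (L : Learner d M T) (s : Sph d) (x : Fin T → Row d) (ω : L.Ω) :
    ℕ → Fin (2 ^ M) × Bool
  | 0 => (L.init ω, false)
  | t + 1 =>
    if h : t < T then
      (if (L.run s x ω t).2 then L.run s x ω t
        else L.step ⟨t, h⟩ (L.run s x ω t).1 (x ⟨t, h⟩, inner ℝ (x ⟨t, h⟩) (s : Row d)) ω)
    else L.run s x ω t

/-- The final state: the state after at most `T` samples. -/
noncomputable def Learner.finalState (L : Learner d M T) (s : Sph d) (x : Fin T → Row d)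
    (ω : L.Ω) : Fin (2 ^ M) :=
  (L.run s x ω T).1

/-- The probability that the output is within angle `ε` of the signal, when the signal is uniform
on the sphere, the `T` rows are independent standard Gaussian vectors, the learner's randomness
has law `coins`, and the three are independent. -/
noncomputable def Learner.successProb (L : Learner d M T) (ε : ℝ) : ENNReal :=
  ((unifSphere d).prod
      ((Measure.pi fun _ : Fin T => stdGaussian (Row d)).prod L.coins))
    {p | Real.arccos
        (inner ℝ ((L.out (L.finalState p.1 p.2.1 p.2.2) p.2.2 : Sph d) : Row d) (p.1 : Row d)) ≤ ε}

/-- The learner succeeds at accuracy `ε`: the output is within angle `ε` of the signal with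
probability at least `2/3`. -/
def Learner.Succeeds (L : Learner d M T) (ε : ℝ) : Prop :=
  (2 / 3 : ENNReal) ≤ L.successProb ε

end Vale.Agent.H83.Stream
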